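import Mathlib

/-!
Definitions for the second Kahn-Kalai conjecture: the binomial random graph `G(n,p)`,
the containment threshold and the expectation threshold.
-/

namespace Vale.Agent.P064h5

open SimpleGraph

/-- The probability that the binomial random graph `G(n,p)` on the vertex set `Fin n`
(each of the `n.choose 2` possible edges is present independently with probability `p`)
is equal to the graph `G`. -/
noncomputable def gnpWeight (n : ℕ) (p : ℝ) (G : SimpleGraph (Fin n)) : ℝ :=
  p ^ G.edgeSet.ncard * (1 - p) ^ (n.choose 2 - G.edgeSet.ncard)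

/-- The expectation of the random variable `f (G(n,p))`. -/
noncomputable def gnpExp (n : ℕ) (p : ℝ) (f : SimpleGraph (Fin n) → ℝ) : ℝ :=
  ∑ G : SimpleGraph (Fin n), gnpWeight n p G * f G

/-- The probability that `G(n,p)` contains a copy of `H`.
(`G.copyCount H` is Mathlib's number of subgraphs of `G` which are isomorphic to `H`.) -/
noncomputable def containProb (n : ℕ) (p : ℝ) {V : Type*} (H : SimpleGraph V) : ℝ :=
  gnpExp n p (fun G => if 0 < G.copyCount H then 1 else 0)

/-- The containment threshold `p_c(n,H)`: the least `p ∈ [0,1]` such that `G(n,p)` contains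
a copy of `H` with probability at least `1/2`. -/
noncomputable def pc (n : ℕ) {V : Type*} (H : SimpleGraph V) : ℝ :=
  sInf {p : ℝ | 0 ≤ p ∧ p ≤ 1 ∧ 1 / 2 ≤ containProb n p H}

/-- The expectation threshold `p_E(n,H)`: the least `p ∈ [0,1]` such that for every subgraph
`F` of `H` the expected number of copies of `F` in `G(n,p)` is at least `1/2`. -/
noncomputable def pE (n : ℕ) {V : Type*} (H : SimpleGraph V) : ℝ :=
  sInf {p : ℝ | 0 ≤ p ∧ p ≤ 1 ∧
    ∀ F : H.Subgraph, 1 / 2 ≤ gnpExp n p (fun G => (G.copyCount F.coe : ℝ))}

end Vale.Agent.P064h5
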