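import Vale.Agent.P064_h5.Graph

/-!
Assembly: `p_c(n,H) ≤ C p_E(n,H) log² n`.
-/

namespace Vale.Agent.P064h5

open Finset Pointwise SimpleGraph

set_option linter.unusedSectionVars false

theorem containProb_eq (n : ℕ) (p : ℝ) {V : Type*} (H : SimpleGraph V) :
    containProb n p H = ex (univ : Finset (Edge n)) p
      (fun W => if 0 < ((gEquiv n).symm W).copyCount H then 1 else 0) := by
  rw [containProb, gnpExp_eq]

/-- The spread property of the family of copies of `H`. -/
theorem spread_of_expect {n : ℕ} {V : Type*} (f : V ↪ Fin n) (H : SimpleGraph V) {p : ℝ}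
    (h0 : 0 ≤ p) (h1 : p ≤ 1)
    (hp : ∀ F : H.Subgraph, 1 / 2 ≤ gnpExp n p (fun G => (G.copyCount F.coe : ℝ)))
    (U : Finset (Edge n)) :
    (nin (Equiv.Perm (Fin n)) (eset (H.map f)) U : ℝ) ≤
      (8 * rounds (eset (H.map f)).card * p) ^ U.card *
        Fintype.card (Equiv.Perm (Fin n)) := by
  have h := log_step (Equiv.Perm (Fin n)) (q := 2 * p) (by positivity)
    (eset (H.map f)).card (eset (H.map f)) le_rfl
    (fun S hS => stab_le f H h0 h1 hp S hS) U
  have e : (4 * (rounds (eset (H.map f)).card : ℝ) * (2 * p)) =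
      8 * rounds (eset (H.map f)).card * p := by ring
  rwa [e] at h

theorem half_le_containProb {n : ℕ} {V : Type*} (f : V ↪ Fin n) (H : SimpleGraph V) {p : ℝ}
    (h0 : 0 ≤ p) (h1 : p ≤ 1)
    (hp : ∀ F : H.Subgraph, 1 / 2 ≤ gnpExp n p (fun G => (G.copyCount F.coe : ℝ)))
    {p' : ℝ} (hp'1 : p' ≤ 1)
    (hp' : 512 * (rounds (eset (H.map f)).card : ℝ) ^ 2 * p ≤ p') :
    1 / 2 ≤ containProb n p' H := by
  have hp'0 : 0 ≤ p' := le_trans (by positivity) hp'
  set R : ℝ := (rounds (eset (H.map f)).card : ℝ) with hR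
  have hκ : 0 ≤ 8 * R * p := by positivity
  have hs := spread (X := Edge n) (ι := Equiv.Perm (Fin n)) (κ := 8 * R * p) (p := p') hκ hp'1
    (eset (H.map f)).card (by rw [← hR]; linarith) univ ⟨1, mem_univ _⟩
    (fun σ => σ • eset (H.map f)) (fun σ _ => (card_smul_finset _ _).le) (by
      intro U
      have := spread_of_expect f H h0 h1 hp U
      rw [card_univ]
      exact this)
  refine hs.trans ?_
  rw [containProb_eq]
  apply ex_mono hp'0 hp'1
  intro W _
  unfold hit
  by_cases hW : ∃ σ ∈ (univ : Finset (Equiv.Perm (Fin n))), σ • eset (H.map f) ⊆ W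
  · obtain ⟨σ, -, hσ⟩ := hW
    have hcont : H ⊑ (gEquiv n).symm W := by
      apply isContained_of_smul_subset f H σ
      rw [eset_symm]
      exact hσ
    rw [if_pos ⟨σ, mem_univ _, hσ⟩, if_pos (copyCount_pos.2 hcont)]
  · rw [if_neg hW]
    split_ifs <;> norm_num

theorem isContained_top {n : ℕ} {V : Type*} (f : V ↪ Fin n) (H : SimpleGraph V) :
    H ⊑ (⊤ : SimpleGraph (Fin n)) := by
  apply isContained_iff_exists_le_comap.2
  refine ⟨f, ?_⟩
  intro a b hab
  simp only [comap_adj, top_adj]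
  exact fun h => hab.ne (f.injective h)

theorem symm_univ (n : ℕ) : (gEquiv n).symm (univ : Finset (Edge n)) = ⊤ := by
  rw [Equiv.symm_apply_eq]
  ext e
  simp only [mem_univ, true_iff]
  show e ∈ eset ⊤
  rw [mem_eset, edgeSet_top]
  exact e.2

theorem containProb_one {n : ℕ} {V : Type*} (f : V ↪ Fin n) (H : SimpleGraph V) :
    containProb n 1 H = 1 := by
  rw [containProb_eq, ex_one, symm_univ, if_pos (copyCount_pos.2 (isContained_top f H))]

theorem one_mem_pE {n : ℕ} {V : Type*} (f : V ↪ Fin n) (H : SimpleGraph V) (F : H.Subgraph) :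
    1 / 2 ≤ gnpExp n 1 (fun G => (G.copyCount F.coe : ℝ)) := by
  rw [gnpExp_eq, ex_one, symm_univ]
  have h : 0 < (⊤ : SimpleGraph (Fin n)).copyCount F.coe := by
    apply copyCount_pos.2
    exact isContained_top ((Function.Embedding.subtype _).trans f) F.coe
  have : (1 : ℝ) ≤ ((⊤ : SimpleGraph (Fin n)).copyCount F.coe : ℝ) := by exact_mod_cast h
  linarith

theorem pc_le_of {n : ℕ} {V : Type*} {H : SimpleGraph V} {p : ℝ} (h0 : 0 ≤ p) (h1 : p ≤ 1)
    (h : 1 / 2 ≤ containProb n p H) : pc n H ≤ p :=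
  csInf_le ⟨0, fun _ hx => hx.1⟩ ⟨h0, h1, h⟩

/-- numerical bound for the number of rounds -/
theorem rounds_bound {n : ℕ} (hn : 2 ≤ n) {E : ℕ} (hE : E ≤ n.choose 2) :
    512 * (rounds E : ℝ) ^ 2 ≤ 4300 * (Real.log n) ^ 2 := by
  have hn' : (2 : ℝ) ≤ n := by exact_mod_cast hn
  have hlogn : 0 < Real.log n := Real.log_pos (by linarith)
  have h2 : (0 : ℝ) < Real.log 2 := Real.log_pos (by norm_num)
  have hlog2 : (0.6931 : ℝ) < Real.log 2 := by
    have := Real.log_two_gt_d9
    linarith
  have hR : (rounds E : ℝ) * Real.log 2 ≤ 2 * Real.log n := by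
    rcases Nat.eq_zero_or_pos E with h | h
    · subst h
      rw [rounds_zero]
      simp only [Nat.cast_zero, zero_mul]
      positivity
    · have h3 : 2 ^ rounds E ≤ 2 * E := Nat.pow_log_le_self 2 (by omega)
      have h4 : 2 * E ≤ n ^ 2 := by
        have := Nat.choose_two_right n
        have h5 : 2 * (n * (n - 1) / 2) ≤ n * (n - 1) := Nat.mul_div_le _ _
        calc 2 * E ≤ 2 * (n * (n - 1) / 2) := by rw [← this]; omega
          _ ≤ n * (n - 1) := h5
          _ ≤ n * n := Nat.mul_le_mul_left _ (Nat.sub_le _ _)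
          _ = n ^ 2 := by ring
      have h6 : ((2 : ℝ)) ^ rounds E ≤ (n : ℝ) ^ 2 := by exact_mod_cast h3.trans h4
      have h7 := Real.log_le_log (by positivity) h6
      rw [Real.log_pow, Real.log_pow] at h7
      exact_mod_cast h7
  have hR0 : (0 : ℝ) ≤ rounds E := Nat.cast_nonneg _
  have h8 : (rounds E : ℝ) * 0.6931 ≤ 2 * Real.log n := by nlinarith
  have h9 : ((rounds E : ℝ) * 0.6931) ^ 2 ≤ (2 * Real.log n) ^ 2 :=
    pow_le_pow_left₀ (by positivity) h8 2
  nlinarith

theorem pc_le_log_sq {n : ℕ} (hn : 2 ≤ n) {V : Type*} [Fintype V] (H : SimpleGraph V)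
    (hV : Fintype.card V ≤ n) :
    pc n H ≤ 4300 * pE n H * (Real.log n) ^ 2 := by
  have hn' : (2 : ℝ) ≤ n := by exact_mod_cast hn
  have hlogn : 0 < Real.log n := Real.log_pos (by linarith)
  obtain ⟨f⟩ : Nonempty (V ↪ Fin n) := by
    apply Function.Embedding.nonempty_of_card_le
    rw [Fintype.card_fin]; exact hV
  have hL : 0 < 4300 * (Real.log n) ^ 2 := by positivity
  have key : pc n H / (4300 * (Real.log n) ^ 2) ≤ pE n H := by
    apply le_csInf
    · exact ⟨1, zero_le_one, le_rfl, one_mem_pE f H⟩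
    · rintro p ⟨h0, h1, hp⟩
      rw [div_le_iff₀ hL]
      by_cases hc : p * (4300 * (Real.log n) ^ 2) ≤ 1
      · apply pc_le_of (by positivity) hc
        apply half_le_containProb f H h0 h1 hp hc
        have := rounds_bound hn (E := (eset (H.map f)).card) (by
          rw [← card_Edge]; exact card_le_univ _)
        nlinarith
      · refine (pc_le_of zero_le_one le_rfl ?_).trans (not_le.1 hc).le
        rw [containProb_one f H]
        norm_num
  rw [div_le_iff₀ hL] at key
  linarith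

end Vale.Agent.P064h5
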