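import Vale.Agent.P064_h5.Iterate
import Vale.Agent.P064_h5.Main

/-!
Assembly: `p_c(n,H) ≤ C p_E(n,H) log n`.
-/

namespace Vale.Agent.P064h5

open Finset Pointwise SimpleGraph

set_option linter.unusedSectionVars false

theorem eset_map_nonempty {n : ℕ} {V : Type*} (f : V ↪ Fin n) {H : SimpleGraph V} (hH : H ≠ ⊥) :
    (eset (H.map f)).Nonempty := by
  rw [nonempty_iff_ne_empty]
  intro h
  apply hH
  ext a b
  simp only [bot_adj, iff_false]
  intro hab
  have h1 : (H.map f).Adj (f a) (f b) := by rwa [map_adj_apply]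
  have h2 : s(f a, f b) ∈ (H.map f).edgeSet := h1
  have h3 : (⟨s(f a, f b), (H.map f).not_isDiag_of_mem_edgeSet h2⟩ : Edge n) ∈ eset (H.map f) :=
    mem_eset.2 h2
  rw [h] at h3
  exact notMem_empty _ h3

theorem pos_of_expect {n : ℕ} {V : Type*} (f : V ↪ Fin n) {H : SimpleGraph V} (hH : H ≠ ⊥)
    {p : ℝ} (h0 : 0 ≤ p) (h1 : p ≤ 1)
    (hp : ∀ F : H.Subgraph, 1 / 2 ≤ gnpExp n p (fun G => (G.copyCount F.coe : ℝ))) : 0 < p := by
  rcases h0.lt_or_eq with h | h
  · exact h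
  · exfalso
    have h2 := stab_le f H h0 h1 hp (eset (H.map f)) (Subset.refl _)
    rw [← h, mul_zero, zero_pow (card_pos.2 (eset_map_nonempty f hH)).ne', zero_mul] at h2
    have h3 : 0 < (univ.filter (fun σ : Equiv.Perm (Fin n) =>
        σ • eset (H.map f) = eset (H.map f))).card := card_pos.2 ⟨1, by simp⟩
    have h4 : (0 : ℝ) < ((univ.filter (fun σ : Equiv.Perm (Fin n) =>
        σ • eset (H.map f) = eset (H.map f))).card : ℝ) := by exact_mod_cast h3
    linarith

theorem half_le_containProb_full {n : ℕ} {V : Type*} (f : V ↪ Fin n) {H : SimpleGraph V}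
    (hH : H ≠ ⊥) {p : ℝ} (h0 : 0 ≤ p) (h1 : p ≤ 1)
    (hp : ∀ F : H.Subgraph, 1 / 2 ≤ gnpExp n p (fun G => (G.copyCount F.coe : ℝ)))
    {p' : ℝ} (hp'1 : p' ≤ 1)
    (hp' : 3 * 2 ^ 40 * (rounds (eset (H.map f)).card : ℝ) * p ≤ p') :
    1 / 2 ≤ containProb n p' H := by
  have hpos := pos_of_expect f hH h0 h1 hp
  have hp'0 : 0 ≤ p' := le_trans (by positivity) hp'
  have hs := hit_bound (X := Edge n) (Equiv.Perm (Fin n)) (q := 2 * p) (p' := p')
    (by positivity) (eset (H.map f)) (eset_map_nonempty f hH)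
    (fun S hS => stab_le f H h0 h1 hp S hS) hp'1 (by linarith)
  refine hs.trans ?_
  rw [containProb_eq]
  apply ex_mono hp'0 hp'1
  intro W _
  unfold hit
  by_cases hW : ∃ σ ∈ (univ : Finset (Equiv.Perm (Fin n))), σ • eset (H.map f) ⊆ W
  · obtain ⟨σ, -, hσ⟩ := hW
    have hcont : H ⊑ (gEquiv n).symm W := by
      apply isContained_of_smul_subset f H σ
      rw [eset_symm]
      exact hσ
    rw [if_pos ⟨σ, mem_univ _, hσ⟩, if_pos (copyCount_pos.2 hcont)]
  · rw [if_neg hW]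
    split_ifs <;> norm_num

/-- numerical bound for the number of rounds -/
theorem rounds_bound' {n : ℕ} (hn : 2 ≤ n) {E : ℕ} (hE : E ≤ n.choose 2) :
    3 * 2 ^ 40 * (rounds E : ℝ) ≤ 10 ^ 13 * Real.log n := by
  have hn' : (2 : ℝ) ≤ n := by exact_mod_cast hn
  have hlogn : 0 < Real.log n := Real.log_pos (by linarith)
  have h2 : (0 : ℝ) < Real.log 2 := Real.log_pos (by norm_num)
  have hlog2 : (0.6931 : ℝ) < Real.log 2 := by
    have := Real.log_two_gt_d9
    linarith
  have hR : (rounds E : ℝ) * Real.log 2 ≤ 2 * Real.log n := by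
    rcases Nat.eq_zero_or_pos E with h | h
    · subst h
      rw [rounds_zero]
      simp only [Nat.cast_zero, zero_mul]
      positivity
    · have h3 : 2 ^ rounds E ≤ 2 * E := Nat.pow_log_le_self 2 (by omega)
      have h4 : 2 * E ≤ n ^ 2 := by
        have := Nat.choose_two_right n
        have h5 : 2 * (n * (n - 1) / 2) ≤ n * (n - 1) := Nat.mul_div_le _ _
        calc 2 * E ≤ 2 * (n * (n - 1) / 2) := by rw [← this]; omega
          _ ≤ n * (n - 1) := h5
          _ ≤ n * n := Nat.mul_le_mul_left _ (Nat.sub_le _ _)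
          _ = n ^ 2 := by ring
      have h6 : ((2 : ℝ)) ^ rounds E ≤ (n : ℝ) ^ 2 := by exact_mod_cast h3.trans h4
      have h7 := Real.log_le_log (by positivity) h6
      rw [Real.log_pow, Real.log_pow] at h7
      exact_mod_cast h7
  have hR0 : (0 : ℝ) ≤ rounds E := Nat.cast_nonneg _
  have h8 : (rounds E : ℝ) * 0.6931 ≤ 2 * Real.log n := by nlinarith
  linarith

theorem pc_le_log {n : ℕ} (hn : 2 ≤ n) {V : Type*} [Fintype V] {H : SimpleGraph V} (hH : H ≠ ⊥)
    (hV : Fintype.card V ≤ n) :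
    pc n H ≤ 10 ^ 13 * pE n H * Real.log n := by
  have hn' : (2 : ℝ) ≤ n := by exact_mod_cast hn
  have hlogn : 0 < Real.log n := Real.log_pos (by linarith)
  obtain ⟨f⟩ : Nonempty (V ↪ Fin n) := by
    apply Function.Embedding.nonempty_of_card_le
    rw [Fintype.card_fin]; exact hV
  have hL : 0 < 10 ^ 13 * Real.log n := by positivity
  have key : pc n H / (10 ^ 13 * Real.log n) ≤ pE n H := by
    apply le_csInf
    · exact ⟨1, zero_le_one, le_rfl, one_mem_pE f H⟩
    · rintro p ⟨h0, h1, hp⟩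
      rw [div_le_iff₀ hL]
      by_cases hc : p * (10 ^ 13 * Real.log n) ≤ 1
      · apply pc_le_of (by positivity) hc
        apply half_le_containProb_full f hH h0 h1 hp hc
        have := rounds_bound' hn (E := (eset (H.map f)).card) (by
          rw [← card_Edge]; exact card_le_univ _)
        nlinarith
      · refine (pc_le_of zero_le_one le_rfl ?_).trans (not_le.1 hc).le
        rw [containProb_one f H]
        norm_num
  rw [div_le_iff₀ hL] at key
  linarith

end Vale.Agent.P064h5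

namespace Vale.Agent.P064h5

open Finset Pointwise SimpleGraph

theorem continuous_gnpExp (n : ℕ) (f : SimpleGraph (Fin n) → ℝ) :
    Continuous (fun p : ℝ => gnpExp n p f) := by
  unfold gnpExp gnpWeight
  fun_prop

theorem isLeast_pc {n : ℕ} {V : Type*} [Fintype V] (H : SimpleGraph V)
    (hV : Fintype.card V ≤ n) :
    IsLeast {p : ℝ | 0 ≤ p ∧ p ≤ 1 ∧ 1 / 2 ≤ containProb n p H} (pc n H) := by
  obtain ⟨f⟩ : Nonempty (V ↪ Fin n) := by
    apply Function.Embedding.nonempty_of_card_le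
    rw [Fintype.card_fin]; exact hV
  have hne : {p : ℝ | 0 ≤ p ∧ p ≤ 1 ∧ 1 / 2 ≤ containProb n p H}.Nonempty :=
    ⟨1, zero_le_one, le_rfl, by rw [containProb_one f H]; norm_num⟩
  have hbd : BddBelow {p : ℝ | 0 ≤ p ∧ p ≤ 1 ∧ 1 / 2 ≤ containProb n p H} :=
    ⟨0, fun _ hx => hx.1⟩
  have hcl : IsClosed {p : ℝ | 0 ≤ p ∧ p ≤ 1 ∧ 1 / 2 ≤ containProb n p H} := by
    have h1 : IsClosed {p : ℝ | (0 : ℝ) ≤ p} := isClosed_le continuous_const continuous_id
    have h2 : IsClosed {p : ℝ | p ≤ (1 : ℝ)} := isClosed_le continuous_id continuous_const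
    have h3 : IsClosed {p : ℝ | 1 / 2 ≤ containProb n p H} :=
      isClosed_le continuous_const (continuous_gnpExp n _)
    exact h1.inter (h2.inter h3)
  exact ⟨hcl.csInf_mem hne hbd, fun x hx => csInf_le hbd hx⟩

theorem isLeast_pE {n : ℕ} {V : Type*} [Fintype V] (H : SimpleGraph V)
    (hV : Fintype.card V ≤ n) :
    IsLeast {p : ℝ | 0 ≤ p ∧ p ≤ 1 ∧
      ∀ F : H.Subgraph, 1 / 2 ≤ gnpExp n p (fun G => (G.copyCount F.coe : ℝ))} (pE n H) := by
  obtain ⟨f⟩ : Nonempty (V ↪ Fin n) := by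
    apply Function.Embedding.nonempty_of_card_le
    rw [Fintype.card_fin]; exact hV
  have hne : {p : ℝ | 0 ≤ p ∧ p ≤ 1 ∧
      ∀ F : H.Subgraph, 1 / 2 ≤ gnpExp n p (fun G => (G.copyCount F.coe : ℝ))}.Nonempty :=
    ⟨1, zero_le_one, le_rfl, one_mem_pE f H⟩
  have hbd : BddBelow {p : ℝ | 0 ≤ p ∧ p ≤ 1 ∧
      ∀ F : H.Subgraph, 1 / 2 ≤ gnpExp n p (fun G => (G.copyCount F.coe : ℝ))} :=
    ⟨0, fun _ hx => hx.1⟩
  have hcl : IsClosed {p : ℝ | 0 ≤ p ∧ p ≤ 1 ∧
      ∀ F : H.Subgraph, 1 / 2 ≤ gnpExp n p (fun G => (G.copyCount F.coe : ℝ))} := by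
    have h1 : IsClosed {p : ℝ | (0 : ℝ) ≤ p} := isClosed_le continuous_const continuous_id
    have h2 : IsClosed {p : ℝ | p ≤ (1 : ℝ)} := isClosed_le continuous_id continuous_const
    have h3 : IsClosed {p : ℝ | ∀ F : H.Subgraph,
        1 / 2 ≤ gnpExp n p (fun G => (G.copyCount F.coe : ℝ))} := by
      have : {p : ℝ | ∀ F : H.Subgraph,
        1 / 2 ≤ gnpExp n p (fun G => (G.copyCount F.coe : ℝ))} = ⋂ F : H.Subgraph,
          {p : ℝ | 1 / 2 ≤ gnpExp n p (fun G => (G.copyCount F.coe : ℝ))} := by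
        ext p; simp
      rw [this]
      exact isClosed_iInter fun F => isClosed_le continuous_const (continuous_gnpExp n _)
    exact h1.inter (h2.inter h3)
  exact ⟨hcl.csInf_mem hne hbd, fun x hx => csInf_le hbd hx⟩

end Vale.Agent.P064h5
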