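import Vale.Agent.P064_h5.LogStep
import Vale.Agent.P064_h5.Defs

/-!
Translation between graphs on `Fin n` and finite sets of edges; orbits and copies.
-/

namespace Vale.Agent.P064h5

open Finset Pointwise SimpleGraph

set_option linter.unusedSectionVars false

/-- possible edges on `Fin n` -/
abbrev Edge (n : ℕ) : Type := {e : Sym2 (Fin n) // ¬ e.IsDiag}

instance edgeSMul (n : ℕ) : SMul (Equiv.Perm (Fin n)) (Edge n) where
  smul σ e := ⟨e.1.map σ, fun h => e.2 ((Sym2.isDiag_map σ.injective).1 h)⟩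

theorem smul_edge_val {n : ℕ} (σ : Equiv.Perm (Fin n)) (e : Edge n) :
    (σ • e).1 = e.1.map σ := rfl

instance edgeAction (n : ℕ) : MulAction (Equiv.Perm (Fin n)) (Edge n) where
  one_smul e := by
    apply Subtype.ext
    rw [smul_edge_val]
    have : ((1 : Equiv.Perm (Fin n)) : Fin n → Fin n) = id := rfl
    rw [this, Sym2.map_id]
    rfl
  mul_smul σ τ e := by
    apply Subtype.ext
    rw [smul_edge_val, smul_edge_val, smul_edge_val, Sym2.map_map]
    rfl

open Classical in
/-- the set of edges of a graph -/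
noncomputable def eset {n : ℕ} (G : SimpleGraph (Fin n)) : Finset (Edge n) :=
  univ.filter (fun e => e.1 ∈ G.edgeSet)

theorem mem_eset {n : ℕ} {G : SimpleGraph (Fin n)} {e : Edge n} :
    e ∈ eset G ↔ e.1 ∈ G.edgeSet := by
  unfold eset
  simp

/-- graphs correspond to sets of edges -/
noncomputable def gEquiv (n : ℕ) : SimpleGraph (Fin n) ≃ Finset (Edge n) where
  toFun := eset
  invFun W := SimpleGraph.fromEdgeSet {e | ∃ h : ¬ e.IsDiag, (⟨e, h⟩ : Edge n) ∈ W}
  left_inv G := by
    have : {e : Sym2 (Fin n) | ∃ h : ¬ e.IsDiag, (⟨e, h⟩ : Edge n) ∈ eset G} = G.edgeSet := by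
      ext e
      constructor
      · rintro ⟨h, he⟩
        exact mem_eset.1 he
      · intro he
        exact ⟨G.not_isDiag_of_mem_edgeSet he, mem_eset.2 he⟩
    show SimpleGraph.fromEdgeSet {e : Sym2 (Fin n) | ∃ h : ¬ e.IsDiag, (⟨e, h⟩ : Edge n) ∈ eset G} = G
    rw [this, fromEdgeSet_edgeSet]
  right_inv W := by
    ext e
    rw [mem_eset, edgeSet_fromEdgeSet]
    constructor
    · rintro ⟨⟨_, h⟩, _⟩
      exact h
    · intro h
      exact ⟨⟨e.2, h⟩, e.2⟩

theorem eset_symm {n : ℕ} (W : Finset (Edge n)) : eset ((gEquiv n).symm W) = W :=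
  (gEquiv n).apply_symm_apply W

theorem eset_injective {n : ℕ} : Function.Injective (eset (n := n)) := (gEquiv n).injective

theorem eset_subset {n : ℕ} {G K : SimpleGraph (Fin n)} : eset G ⊆ eset K ↔ G ≤ K := by
  rw [← edgeSet_subset_edgeSet]
  constructor
  · intro h e he
    have := h (mem_eset.2 (show ((⟨e, G.not_isDiag_of_mem_edgeSet he⟩ : Edge n)).1 ∈ G.edgeSet from he))
    exact mem_eset.1 this
  · intro h e he
    exact mem_eset.2 (h (mem_eset.1 he))

theorem smul_eset {n : ℕ} (σ : Equiv.Perm (Fin n)) (G : SimpleGraph (Fin n)) :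
    σ • eset G = eset (G.map σ.toEmbedding) := by
  ext e
  rw [mem_smul_finset, mem_eset, edgeSet_map]
  constructor
  · rintro ⟨e', he', rfl⟩
    exact ⟨e'.1, mem_eset.1 he', rfl⟩
  · rintro ⟨e', he', h⟩
    exact ⟨⟨e', G.not_isDiag_of_mem_edgeSet he'⟩, mem_eset.2 he', Subtype.ext h⟩

theorem card_eset {n : ℕ} (G : SimpleGraph (Fin n)) : (eset G).card = G.edgeSet.ncard := by
  have : G.edgeSet = Subtype.val '' ((eset G : Finset (Edge n)) : Set (Edge n)) := by
    ext e
    constructor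
    · intro he
      exact ⟨⟨e, G.not_isDiag_of_mem_edgeSet he⟩, mem_coe.2 (mem_eset.2 he), rfl⟩
    · rintro ⟨e', he', rfl⟩
      exact mem_eset.1 (mem_coe.1 he')
  rw [this, Set.ncard_image_of_injective _ Subtype.val_injective, Set.ncard_coe_finset]

theorem card_Edge (n : ℕ) : Fintype.card (Edge n) = n.choose 2 := by
  have := Sym2.card_subtype_not_diag (α := Fin n)
  rw [Fintype.card_fin] at this
  rw [← this]

theorem gnpExp_eq (n : ℕ) (p : ℝ) (f : SimpleGraph (Fin n) → ℝ) :
    gnpExp n p f = ex (univ : Finset (Edge n)) p (fun W => f ((gEquiv n).symm W)) := by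
  rw [ex_univ, gnpExp]
  rw [← (gEquiv n).sum_comp]
  apply sum_congr rfl
  intro G _
  rw [Equiv.symm_apply_apply]
  congr 1
  unfold gnpWeight wt
  have : (gEquiv n) G = eset G := rfl
  rw [this, card_eset, card_Edge]

/-- containment from the edge sets -/
theorem isContained_of_smul_subset {n : ℕ} {V : Type*} (f : V ↪ Fin n) (H : SimpleGraph V)
    (σ : Equiv.Perm (Fin n)) (G : SimpleGraph (Fin n))
    (h : σ • eset (H.map f) ⊆ eset G) : H ⊑ G := by
  rw [smul_eset, eset_subset, map_le_iff_le_comap, map_le_iff_le_comap, comap_comap] at h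
  exact isContained_iff_exists_le_comap.2 ⟨f.trans σ.toEmbedding, h⟩

/-- orbit-stabiliser (inequality) -/
theorem orbit_mul_stab_le {X : Type*} [Fintype X] [DecidableEq X] (G : Type*) [Group G]
    [Fintype G] [MulAction G X] (S : Finset X) :
    ((univ : Finset G).image (fun g => g • S)).card *
      (univ.filter (fun g : G => g • S = S)).card ≤ Fintype.card G := by
  have h := card_eq_sum_card_image (fun g : G => g • S) univ
  rw [← card_univ, h, ← smul_eq_mul, ← sum_const]
  apply sum_le_sum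
  intro T hT
  obtain ⟨g₀, -, rfl⟩ := mem_image.1 hT
  apply card_le_card_of_injOn (fun g => g₀ * g)
  · intro g hg
    rw [mem_coe, mem_filter] at hg ⊢
    refine ⟨mem_univ _, ?_⟩
    rw [mul_smul, hg.2]
  · intro a _ b _ hab
    exact mul_left_cancel hab

/-- The subgraph of `H` corresponding to a graph `K` contained in the image of `H`,
without isolated vertices. -/
def sub {n : ℕ} {V : Type*} (f : V ↪ Fin n) (H : SimpleGraph V) (K : SimpleGraph (Fin n))
    (hK : K ≤ H.map f) : H.Subgraph where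
  verts := {v | ∃ w, K.Adj (f v) (f w)}
  Adj v w := K.Adj (f v) (f w)
  adj_sub := by
    intro v w h
    have := hK h
    rwa [map_adj_apply] at this
  edge_vert := fun {v w} h => ⟨w, h⟩
  symm := ⟨fun _ _ h => h.symm⟩

theorem copy_verts {n : ℕ} {V : Type*} (f : V ↪ Fin n) (H : SimpleGraph V)
    (K : SimpleGraph (Fin n)) (hK : K ≤ H.map f) {G : SimpleGraph (Fin n)} (A : G.Subgraph)
    (φ : (sub f H K hK).coe ≃g A.coe) (x : Fin n) : x ∈ A.verts ↔ ∃ y, A.Adj x y := by
  constructor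
  · intro hx
    obtain ⟨v, hv⟩ := φ.surjective ⟨x, hx⟩
    obtain ⟨w, hw⟩ := v.2
    have hw' : w ∈ (sub f H K hK).verts := ⟨v.1, hw.symm⟩
    have hadj : (sub f H K hK).coe.Adj v ⟨w, hw'⟩ := hw
    have := φ.map_adj_iff.2 hadj
    rw [hv] at this
    exact ⟨(φ ⟨w, hw'⟩).1, this⟩
  · rintro ⟨y, hy⟩
    exact A.edge_vert hy

theorem copy_mem_orbit {n : ℕ} {V : Type*} (f : V ↪ Fin n) (H : SimpleGraph V)
    (K : SimpleGraph (Fin n)) (hK : K ≤ H.map f) {G : SimpleGraph (Fin n)} (A : G.Subgraph)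
    (φ : (sub f H K hK).coe ≃g A.coe) :
    ∃ σ : Equiv.Perm (Fin n), σ • eset K = eset A.spanningCoe := by
  classical
  set F := sub f H K hK with hF
  let e : {x // x ∈ f '' F.verts} ≃ {x // x ∈ A.verts} :=
    (Equiv.Set.image f F.verts f.injective).symm.trans φ.toEquiv
  have he : ∀ v (hv : v ∈ F.verts), ((e ⟨f v, ⟨v, hv, rfl⟩⟩ : {x // x ∈ A.verts}) : Fin n) =
      (φ ⟨v, hv⟩ : Fin n) := by
    intro v hv
    have : (Equiv.Set.image f F.verts f.injective).symm ⟨f v, ⟨v, hv, rfl⟩⟩ = ⟨v, hv⟩ := by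
      rw [Equiv.symm_apply_eq]
      rfl
    simp only [e, Equiv.trans_apply, this]
    rfl
  let σ : Equiv.Perm (Fin n) := e.extendSubtype
  have hσ : ∀ v (hv : v ∈ F.verts), σ (f v) = (φ ⟨v, hv⟩ : Fin n) := by
    intro v hv
    rw [← he v hv]
    exact e.extendSubtype_apply_of_mem _ _
  refine ⟨σ, ?_⟩
  rw [smul_eset]
  congr 1
  ext x y
  rw [map_adj]
  constructor
  · rintro ⟨a, b, hab, rfl, rfl⟩
    obtain ⟨v, w, hvw, rfl, rfl⟩ := (map_adj _ _ _ _).1 (hK hab)
    have hv : v ∈ F.verts := ⟨w, hab⟩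
    have hw : w ∈ F.verts := ⟨v, hab.symm⟩
    have hadj : F.coe.Adj ⟨v, hv⟩ ⟨w, hw⟩ := hab
    have h2 := φ.map_adj_iff.2 hadj
    rw [Equiv.toEmbedding_apply, Equiv.toEmbedding_apply, hσ v hv, hσ w hw]
    exact h2
  · intro hxy
    have hxy' : A.Adj x y := hxy
    obtain ⟨v, hv⟩ := φ.surjective ⟨x, A.edge_vert hxy'⟩
    obtain ⟨w, hw⟩ := φ.surjective ⟨y, A.edge_vert hxy'.symm⟩
    refine ⟨f v, f w, ?_, ?_, ?_⟩
    · have : A.coe.Adj (φ v) (φ w) := by rw [hv, hw]; exact hxy'
      exact φ.map_adj_iff.1 this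
    · rw [Equiv.toEmbedding_apply, hσ v.1 v.2]
      exact congrArg Subtype.val hv
    · rw [Equiv.toEmbedding_apply, hσ w.1 w.2]
      exact congrArg Subtype.val hw

theorem copyCount_le_orbit {n : ℕ} {V : Type*} (f : V ↪ Fin n) (H : SimpleGraph V)
    (K : SimpleGraph (Fin n)) (hK : K ≤ H.map f) (G : SimpleGraph (Fin n)) :
    G.copyCount (sub f H K hK).coe ≤
      (((univ : Finset (Equiv.Perm (Fin n))).image (fun σ => σ • eset K)).filter
        (fun T => T ⊆ eset G)).card := by
  classical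
  unfold copyCount
  apply card_le_card_of_injOn (fun A : G.Subgraph => eset A.spanningCoe)
  · intro A hA
    rw [mem_coe, mem_filter] at hA ⊢
    obtain ⟨φ⟩ := hA.2
    obtain ⟨σ, hσ⟩ := copy_mem_orbit f H K hK A φ
    exact ⟨mem_image.2 ⟨σ, mem_univ _, hσ⟩, eset_subset.2 A.spanningCoe_le⟩
  · intro A hA B hB hAB
    rw [mem_coe, mem_filter] at hA hB
    obtain ⟨φA⟩ := hA.2
    obtain ⟨φB⟩ := hB.2
    have h1 : A.spanningCoe = B.spanningCoe := eset_injective hAB
    have hadj : ∀ x y, A.Adj x y ↔ B.Adj x y := by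
      intro x y
      have : A.spanningCoe.Adj x y ↔ B.spanningCoe.Adj x y := by rw [h1]
      exact this
    apply Subgraph.ext
    · ext x
      rw [copy_verts f H K hK A φA, copy_verts f H K hK B φB]
      simp only [hadj]
    · funext x y
      exact propext (hadj x y)

/-- expected number of copies is at most the orbit size times `p ^ e` -/
theorem exp_copyCount_le {n : ℕ} {V : Type*} (f : V ↪ Fin n) (H : SimpleGraph V)
    (K : SimpleGraph (Fin n)) (hK : K ≤ H.map f) {p : ℝ} (h0 : 0 ≤ p) (h1 : p ≤ 1) :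
    gnpExp n p (fun G => (G.copyCount (sub f H K hK).coe : ℝ)) ≤
      ((univ : Finset (Equiv.Perm (Fin n))).image (fun σ => σ • eset K)).card *
        p ^ (eset K).card := by
  classical
  rw [gnpExp_eq]
  set O := (univ : Finset (Equiv.Perm (Fin n))).image (fun σ => σ • eset K) with hO
  have hpt : ∀ W : Finset (Edge n), W ⊆ univ →
      ((((gEquiv n).symm W).copyCount (sub f H K hK).coe : ℕ) : ℝ) ≤
        ∑ T ∈ O, if T ⊆ W then (1 : ℝ) else 0 := by
    intro W _
    have h := copyCount_le_orbit f H K hK ((gEquiv n).symm W)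
    rw [eset_symm] at h
    rw [← sum_filter, sum_const, nsmul_eq_mul, mul_one]
    exact_mod_cast h
  refine (ex_mono h0 h1 hpt).trans ?_
  have hsum : ex (univ : Finset (Edge n)) p (fun W => ∑ T ∈ O, if T ⊆ W then (1 : ℝ) else 0) =
      ∑ T ∈ O, ex (univ : Finset (Edge n)) p (fun W => if T ⊆ W then (1 : ℝ) else 0) := by
    unfold ex
    rw [sum_comm]
    apply sum_congr rfl
    intro W _
    rw [mul_sum]
  rw [hsum]
  have hcard : ∀ T ∈ O, ex (univ : Finset (Edge n)) p (fun W => if T ⊆ W then (1 : ℝ) else 0) =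
      p ^ (eset K).card := by
    intro T hT
    rw [ex_superset (subset_univ T)]
    obtain ⟨σ, -, rfl⟩ := mem_image.1 hT
    rw [card_smul_finset]
  rw [sum_congr rfl hcard, sum_const, nsmul_eq_mul]

/-- stabilisers are small -/
theorem stab_le {n : ℕ} {V : Type*} (f : V ↪ Fin n) (H : SimpleGraph V) {p : ℝ} (h0 : 0 ≤ p)
    (h1 : p ≤ 1)
    (hp : ∀ F : H.Subgraph, 1 / 2 ≤ gnpExp n p (fun G => (G.copyCount F.coe : ℝ)))
    (S : Finset (Edge n)) (hS : S ⊆ eset (H.map f)) :
    ((univ.filter (fun σ : Equiv.Perm (Fin n) => σ • S = S)).card : ℝ) ≤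
      (2 * p) ^ S.card * Fintype.card (Equiv.Perm (Fin n)) := by
  rcases S.eq_empty_or_nonempty with hSe | hSne
  · subst hSe
    simp only [card_empty, pow_zero, one_mul]
    exact_mod_cast card_le_univ _
  set K := (gEquiv n).symm S with hKdef
  have hSK : eset K = S := eset_symm S
  have hK : K ≤ H.map f := by rw [← eset_subset, hSK]; exact hS
  have h2 := (hp (sub f H K hK)).trans (exp_copyCount_le f H K hK h0 h1)
  rw [hSK] at h2
  have h3 := orbit_mul_stab_le (Equiv.Perm (Fin n)) S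
  have h3' : (((univ : Finset (Equiv.Perm (Fin n))).image (fun g => g • S)).card : ℝ) *
      ((univ.filter (fun g : Equiv.Perm (Fin n) => g • S = S)).card : ℝ) ≤
      Fintype.card (Equiv.Perm (Fin n)) := by exact_mod_cast h3
  set O : ℝ := (((univ : Finset (Equiv.Perm (Fin n))).image (fun g => g • S)).card : ℝ)
  set St : ℝ := ((univ.filter (fun g : Equiv.Perm (Fin n) => g • S = S)).card : ℝ)
  set N : ℝ := (Fintype.card (Equiv.Perm (Fin n)) : ℝ)
  have hSt : 0 ≤ St := Nat.cast_nonneg _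
  have hpS : 0 ≤ p ^ S.card := pow_nonneg h0 _
  have hcard : 1 ≤ S.card := card_pos.2 hSne
  have h4 : St ≤ 2 * p ^ S.card * N := by
    have e1 : 1 / 2 * St ≤ (O * p ^ S.card) * St := mul_le_mul_of_nonneg_right h2 hSt
    have e2 : (O * St) * p ^ S.card ≤ N * p ^ S.card := mul_le_mul_of_nonneg_right h3' hpS
    nlinarith
  refine h4.trans ?_
  have hN : 0 ≤ N := Nat.cast_nonneg _
  apply mul_le_mul_of_nonneg_right _ hN
  rw [mul_pow]
  apply mul_le_mul_of_nonneg_right _ hpS
  calc (2 : ℝ) = 2 ^ 1 := by norm_num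
    _ ≤ 2 ^ S.card := pow_le_pow_right₀ (by norm_num) hcard

theorem ex_one {X : Type*} [DecidableEq X] (s : Finset X) (g : Finset X → ℝ) :
    ex s 1 g = g s := by
  induction s using Finset.induction_on generalizing g with
  | empty => simp [ex_empty]
  | insert a s ha ih => rw [ex_insert ha, ih, ih]; simp

end Vale.Agent.P064h5
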