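import Vale.Agent.P064_h5.Prog

/-!
Iterating the advance step; existence of the chain; the threshold bound for group actions.
-/

namespace Vale.Agent.P064h5

open Finset Pointwise

set_option linter.unusedSectionVars false

variable {X : Type*} [Fintype X] [DecidableEq X] (G : Type*) [Group G] [Fintype G]
  [DecidableEq G] [MulAction G X]

theorem hit_nonneg {ι : Type*} [DecidableEq ι] (I : Finset ι) (S : ι → Finset X) (W : Finset X) :
    0 ≤ hit I S W := by
  unfold hit
  split_ifs <;> norm_num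

theorem iterate {c p : ℝ} (hc : 0 < c) (hp0 : 0 < p) (hp1 : p ≤ 1) (hpK : 2 ^ 34 * c ≤ p)
    {J : ℕ → Finset X} (hsub : ∀ j, J (j + 1) ⊆ J j) (h5 : ∀ j, 5 * (J (j + 1)).card ≤ (J j).card)
    (hmax : ∀ j (U : Finset X), (nin G (J j) U : ℝ) * c ^ (J (j + 1)).card ≤
      nin G (J j) (J (j + 1)) * c ^ U.card) {m : ℕ} (hm : J m = ∅) (R : ℕ) :
    ∀ (d g : ℕ) (V : Finset X), (J 0).card / 2 ^ (g + d) = 0 → Prog G J m ∅ g V →
      1 - 2 ^ d * (19 / 32) ^ R ≤ ex univ (1 - (1 - p) ^ R)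
        (fun W => hit (univ : Finset G) (fun γ => γ • J 0) (V ∪ W)) := by
  classical
  have hq0 : 0 ≤ 1 - p := by linarith
  have hfinal : ∀ (g : ℕ) (V : Finset X), (J 0).card / 2 ^ g = 0 → Prog G J m ∅ g V →
      ∀ W : Finset X, hit (univ : Finset G) (fun γ => γ • J 0) (V ∪ W) = 1 := by
    intro g V hg hprog W
    obtain ⟨b, hb⟩ := prog_final G hsub hg (A := ∅) ⟨1, by rw [hm]; simp⟩ (empty_subset V) hprog
    unfold hit
    rw [if_pos ⟨b, mem_univ _, hb.trans subset_union_left⟩]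
  induction R with
  | zero =>
    intro d g V _ _
    have h1 : 0 ≤ ex univ (1 - (1 - p) ^ 0)
        (fun W => hit (univ : Finset G) (fun γ => γ • J 0) (V ∪ W)) :=
      ex_nonneg (by simp) (by simp) (fun W _ => hit_nonneg _ _ _)
    have h2 : (1 : ℝ) ≤ 2 ^ d := one_le_pow₀ (by norm_num)
    have h3 : (1 : ℝ) - 2 ^ d * (19 / 32) ^ 0 ≤ 0 := by rw [pow_zero, mul_one]; linarith
    exact h3.trans h1
  | succ R ih =>
    intro d g V hd hprog
    set p' : ℝ := 1 - (1 - p) ^ R with hp'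
    have hp'0 : 0 ≤ p' := by
      have : (1 - p) ^ R ≤ 1 := pow_le_one₀ hq0 (by linarith)
      linarith
    have hp'1 : p' ≤ 1 := by
      have : 0 ≤ (1 - p) ^ R := pow_nonneg hq0 _
      linarith
    have e1 : 1 - (1 - p) ^ (R + 1) = 1 - (1 - p) * (1 - p') := by
      rw [pow_succ, hp']; ring
    rw [e1, ← ex_union]
    cases d with
    | zero =>
      have h1 : ex univ p (fun W₁ => ex univ p' (fun W₂ =>
          hit (univ : Finset G) (fun γ => γ • J 0) (V ∪ (W₁ ∪ W₂)))) =
          ex (univ : Finset X) p (fun _ => 1) := by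
        apply ex_congr
        intro W₁ _
        refine Eq.trans (ex_congr (h := fun _ => 1) ?_) (ex_const _ _ _)
        intro W₂ _
        exact hfinal g V hd hprog _
      rw [h1, ex_const]
      have : (0 : ℝ) ≤ 2 ^ 0 * (19 / 32) ^ (R + 1) := by positivity
      linarith
    | succ d =>
      have hstep := step G hc hp0 hp1 hpK hsub h5 hmax m ∅ ⟨1, by rw [hm]; simp⟩ V g hprog
      have hstep' := hstep.trans (tb_le J m g)
      have hpt : ∀ W₁ : Finset X, W₁ ⊆ univ →
          1 - 2 ^ d * (19 / 32) ^ R + (-(2 ^ d * (19 / 32) ^ R)) *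
            (if ¬ Prog G J m ∅ (g + 1) (V ∪ W₁) then (1 : ℝ) else 0) ≤
          ex univ p' (fun W₂ => hit (univ : Finset G) (fun γ => γ • J 0) (V ∪ (W₁ ∪ W₂))) := by
        intro W₁ _
        simp only [← union_assoc]
        by_cases hW : Prog G J m ∅ (g + 1) (V ∪ W₁)
        · rw [if_neg (not_not.2 hW)]
          have := ih d (g + 1) (V ∪ W₁) (by rw [show g + 1 + d = g + (d + 1) by ring]; exact hd) hW
          linarith
        · rw [if_pos hW]
          have := ih (d + 1) g (V ∪ W₁) hd (hprog.mono G subset_union_left)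
          rw [pow_succ] at this
          linarith
      refine le_trans ?_ (ex_mono hp0.le hp1 hpt)
      rw [ex_add (univ : Finset X) p (fun _ => 1 - 2 ^ d * (19 / 32) ^ R)
        (fun W₁ => (-(2 ^ d * (19 / 32) ^ R)) *
            (if ¬ Prog G J m ∅ (g + 1) (V ∪ W₁) then (1 : ℝ) else 0)), ex_const, ex_const_mul]
      have hpos : (0 : ℝ) ≤ 2 ^ d * (19 / 32) ^ R := by positivity
      have h6 := mul_le_mul_of_nonneg_left hstep' hpos
      have h7 : (2 : ℝ) ^ (d + 1) * (19 / 32) ^ (R + 1) =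
          2 ^ d * (19 / 32) ^ R + 2 ^ d * (19 / 32) ^ R * (3 / 16) := by
        rw [pow_succ, pow_succ]; ring
      rw [h7]
      linarith

/-- existence of the next member of the chain -/
theorem exists_next {q : ℝ} (hq : 0 < q) (H : Finset X)
    (hyp : ∀ S ⊆ H, ((univ.filter (fun g : G => g • S = S)).card : ℝ) ≤
      q ^ S.card * Fintype.card G) :
    ∃ J : Finset X, J ⊆ H ∧ 5 * J.card ≤ H.card ∧
      ∀ U : Finset X, (nin G H U : ℝ) * (32 * q) ^ J.card ≤ nin G H J * (32 * q) ^ U.card := by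
  have hGpos : (0 : ℝ) < Fintype.card G := by exact_mod_cast Fintype.card_pos
  set c : ℝ := 32 * q with hc
  have hcpos : 0 < c := by positivity
  obtain ⟨J₀, -, hmax₀⟩ := exists_max_image (univ : Finset (Finset X))
    (fun U => (nin G H U : ℝ) / c ^ U.card) ⟨∅, mem_univ _⟩
  have hJ₀1 : (Fintype.card G : ℝ) ≤ (nin G H J₀ : ℝ) / c ^ J₀.card := by
    have := hmax₀ ∅ (mem_univ _)
    simpa [nin_empty_right] using this
  have hJ₀pos : 0 < nin G H J₀ := by
    rcases Nat.eq_zero_or_pos (nin G H J₀) with h | h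
    · rw [h] at hJ₀1
      simp only [Nat.cast_zero, zero_div] at hJ₀1
      linarith
    · exact h
  obtain ⟨g₀, hg₀⟩ := card_pos.1 hJ₀pos
  simp only [mem_filter, mem_univ, true_and] at hg₀
  set J : Finset X := g₀⁻¹ • J₀ with hJdef
  have hJH : J ⊆ H := by
    have := smul_finset_subset_smul_finset (a := g₀⁻¹) hg₀
    rwa [inv_smul_smul] at this
  have hJcard : J.card = J₀.card := card_smul_finset _ _
  have hJnin : nin G H J = nin G H J₀ := nin_smul G H J₀ g₀⁻¹
  have hmax : ∀ U : Finset X, (nin G H U : ℝ) / c ^ U.card ≤ (nin G H J : ℝ) / c ^ J.card := by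
    intro U
    rw [hJcard, hJnin]
    exact hmax₀ U (mem_univ _)
  have hJ1 : (Fintype.card G : ℝ) ≤ (nin G H J : ℝ) / c ^ J.card := by
    rw [hJcard, hJnin]; exact hJ₀1
  have hcJ : 0 < c ^ J.card := pow_pos hcpos _
  refine ⟨J, hJH, ?_, ?_⟩
  · have h1 := nin_le_two_pow G hq.le H J (hyp J hJH)
    have h2 : (Fintype.card G : ℝ) * c ^ J.card ≤ nin G H J := by
      rwa [le_div_iff₀ hcJ] at hJ1
    have h3 : (Fintype.card G : ℝ) * (32 ^ J.card * q ^ J.card) ≤
        2 ^ H.card * (q ^ J.card * Fintype.card G) := by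
      rw [← mul_pow, ← hc]
      exact h2.trans h1
    have h4 : (32 : ℝ) ^ J.card ≤ 2 ^ H.card := by
      have hpos : 0 < q ^ J.card * (Fintype.card G : ℝ) := by positivity
      have h5 : (32 : ℝ) ^ J.card * (q ^ J.card * (Fintype.card G : ℝ)) ≤
          2 ^ H.card * (q ^ J.card * (Fintype.card G : ℝ)) := by
        linarith
      exact le_of_mul_le_mul_right h5 hpos
    have h6 : (2 : ℝ) ^ (5 * J.card) ≤ 2 ^ H.card := by
      rw [pow_mul]; norm_num; exact h4
    exact (pow_le_pow_iff_right₀ (by norm_num : (1 : ℝ) < 2)).1 h6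
  · intro U
    have h1 := hmax U
    have hcU : 0 < c ^ U.card := pow_pos hcpos _
    rw [div_le_div_iff₀ hcU hcJ] at h1
    exact h1

/-- existence of the chain -/
theorem exists_chain {q : ℝ} (hq : 0 < q) (H : Finset X)
    (hyp : ∀ S ⊆ H, ((univ.filter (fun g : G => g • S = S)).card : ℝ) ≤
      q ^ S.card * Fintype.card G) :
    ∃ J : ℕ → Finset X, J 0 = H ∧ (∀ j, J (j + 1) ⊆ J j) ∧
      (∀ j, 5 * (J (j + 1)).card ≤ (J j).card) ∧
      ∀ j (U : Finset X), (nin G (J j) U : ℝ) * (32 * q) ^ (J (j + 1)).card ≤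
        nin G (J j) (J (j + 1)) * (32 * q) ^ U.card := by
  classical
  let T := {H' : Finset X // ∀ S ⊆ H', ((univ.filter (fun g : G => g • S = S)).card : ℝ) ≤
      q ^ S.card * Fintype.card G}
  have hnext : ∀ H' : T, ∃ J : T, J.1 ⊆ H'.1 ∧ 5 * J.1.card ≤ H'.1.card ∧
      ∀ U : Finset X, (nin G H'.1 U : ℝ) * (32 * q) ^ J.1.card ≤
        nin G H'.1 J.1 * (32 * q) ^ U.card := by
    intro H'
    obtain ⟨J, h1, h2, h3⟩ := exists_next G hq H'.1 H'.2
    exact ⟨⟨J, fun S hS => H'.2 S (hS.trans h1)⟩, h1, h2, h3⟩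
  choose next hn1 hn2 hn3 using hnext
  let J : ℕ → T := fun j => Nat.rec ⟨H, hyp⟩ (fun _ H' => next H') j
  have hJ : ∀ j, J (j + 1) = next (J j) := fun j => rfl
  refine ⟨fun j => (J j).1, rfl, ?_, ?_, ?_⟩
  · intro j
    show (J (j + 1)).1 ⊆ (J j).1
    rw [hJ]
    exact hn1 _
  · intro j
    show 5 * (J (j + 1)).1.card ≤ (J j).1.card
    rw [hJ]
    exact hn2 _
  · intro j
    show ∀ U : Finset X, (nin G (J j).1 U : ℝ) * (32 * q) ^ (J (j + 1)).1.card ≤
        nin G (J j).1 (J (j + 1)).1 * (32 * q) ^ U.card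
    rw [hJ]
    exact hn3 _

/-- The threshold theorem for group actions. -/
theorem hit_bound {q p' : ℝ} (hq : 0 < q) (H : Finset X) (hH : H.Nonempty)
    (hyp : ∀ S ⊆ H, ((univ.filter (fun g : G => g • S = S)).card : ℝ) ≤
      q ^ S.card * Fintype.card G)
    (hp'1 : p' ≤ 1) (hp' : 3 * 2 ^ 39 * (rounds H.card : ℝ) * q ≤ p') :
    1 / 2 ≤ ex univ p' (hit (univ : Finset G) (fun γ => γ • H)) := by
  obtain ⟨J, hJ0, hsub, h5, hmax⟩ := exists_chain G hq H hyp
  have hHpos : 1 ≤ H.card := card_pos.2 hH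
  have hr : 1 ≤ rounds H.card := by rw [rounds_pos hHpos]; omega
  have hr' : (1 : ℝ) ≤ rounds H.card := by exact_mod_cast hr
  -- the chain terminates
  have hcardle : ∀ j, 5 ^ j * (J j).card ≤ (J 0).card := by
    intro j
    induction j with
    | zero => simp
    | succ j ih =>
      calc 5 ^ (j + 1) * (J (j + 1)).card = 5 ^ j * (5 * (J (j + 1)).card) := by ring
        _ ≤ 5 ^ j * (J j).card := Nat.mul_le_mul_left _ (h5 j)
        _ ≤ (J 0).card := ih
  have hm : J H.card = ∅ := by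
    rw [← card_eq_zero]
    by_contra hne
    have h1 : 1 ≤ (J H.card).card := Nat.one_le_iff_ne_zero.2 hne
    have h2 := hcardle H.card
    rw [hJ0] at h2
    have h3 : H.card < 5 ^ H.card := Nat.lt_pow_self (by norm_num)
    have h4 : 5 ^ H.card * 1 ≤ 5 ^ H.card * (J H.card).card := Nat.mul_le_mul_left _ h1
    omega
  set c : ℝ := 32 * q with hc
  set p : ℝ := 2 ^ 34 * c with hp
  have hc0 : 0 < c := by positivity
  have hp0 : 0 < p := by positivity
  have hple : p ≤ p' := by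
    have h1 : p = 2 ^ 39 * q := by rw [hp, hc]; ring
    rw [h1]
    have h2 : 2 ^ 39 * q * 1 ≤ 2 ^ 39 * q * (3 * (rounds H.card : ℝ)) := by
      apply mul_le_mul_of_nonneg_left _ (by positivity)
      linarith
    linarith
  have hp1 : p ≤ 1 := hple.trans hp'1
  have hcomplete : (J 0).card / 2 ^ (0 + rounds H.card) = 0 := by
    rw [hJ0, zero_add]
    apply Nat.div_eq_of_lt
    have h1 : 2 * H.card < 2 ^ (Nat.log 2 (2 * H.card) + 1) :=
      Nat.lt_pow_succ_log_self (by norm_num) _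
    unfold rounds
    rw [pow_succ] at h1
    omega
  have hit0 := iterate G hc0 hp0 hp1 le_rfl hsub h5 hmax hm (3 * rounds H.card)
    (rounds H.card) 0 ∅ hcomplete (prog_zero G J _ _ _)
  rw [hJ0] at hit0
  simp only [empty_union] at hit0
  have hq0 : 0 ≤ 1 - p := by linarith
  have hb0 : 0 ≤ 1 - (1 - p) ^ (3 * rounds H.card) := by
    have : (1 - p) ^ (3 * rounds H.card) ≤ 1 := pow_le_one₀ hq0 (by linarith)
    linarith
  have hb : 1 - (1 - p) ^ (3 * rounds H.card) ≤ p' := by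
    have h1 := one_add_mul_le_pow (a := -p) (by linarith) (3 * rounds H.card)
    have e : 1 + -p = 1 - p := by ring
    rw [e] at h1
    have h2 : ((3 * rounds H.card : ℕ) : ℝ) * p = 3 * 2 ^ 39 * (rounds H.card : ℝ) * q := by
      push_cast
      rw [hp, hc]
      ring
    linarith
  have hmono := ex_mono_left (s := (univ : Finset X)) hb0 hb hp'1
    (g := hit (univ : Finset G) (fun γ => γ • H)) (hit_mono _ _)
  refine le_trans ?_ hmono
  refine le_trans ?_ hit0
  have h8 : (2 : ℝ) ^ rounds H.card * (19 / 32) ^ (3 * rounds H.card) ≤ 1 / 2 := by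
    rw [pow_mul, ← mul_pow]
    calc (2 * (19 / 32 : ℝ) ^ 3) ^ rounds H.card ≤ (2 * (19 / 32 : ℝ) ^ 3) ^ 1 :=
          pow_le_pow_of_le_one (by norm_num) (by norm_num) hr
      _ ≤ 1 / 2 := by norm_num
  linarith

end Vale.Agent.P064h5
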