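import Vale.Agent.P064_h5.Graph

/-!
The key lemma: one round of sprinkling, with decreasing bad events.
-/

namespace Vale.Agent.P064h5

open Finset

set_option linter.unusedSectionVars false

variable {X : Type*} [DecidableEq X]

theorem ex_sum {ι : Type*} (I : Finset ι) (s : Finset X) (p : ℝ) (g : ι → Finset X → ℝ) :
    ex s p (fun W => ∑ i ∈ I, g i W) = ∑ i ∈ I, ex s p (g i) := by
  unfold ex
  rw [sum_comm]
  apply sum_congr rfl
  intro W _
  rw [mul_sum]

open Classical in
/-- conditioning on containing a set -/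
theorem ex_cond {s V : Finset X} (hV : V ⊆ s) (p : ℝ) (g : Finset X → ℝ) :
    ex s p (fun W => if V ⊆ W then g W else 0) = p ^ V.card * ex s p (fun W => g (W ∪ V)) := by
  induction s using Finset.induction_on generalizing V g with
  | empty =>
    have : V = ∅ := subset_empty.1 hV
    subst this
    simp [ex_empty]
  | insert a s ha ih =>
    rw [ex_insert ha, ex_insert ha]
    by_cases haV : a ∈ V
    · have hV' : V.erase a ⊆ s := by
        intro x hx
        have := hV (mem_of_mem_erase hx)
        rcases mem_insert.1 this with h | h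
        · exact absurd h (ne_of_mem_erase hx)
        · exact h
      have e1 : ex s p (fun W => if V ⊆ W then g W else 0) = 0 := by
        have : ex s p (fun W => if V ⊆ W then g W else 0) = ex s p (fun _ => 0) := by
          apply ex_congr
          intro W hW
          have : ¬ V ⊆ W := fun h => ha (hW (h haV))
          simp [this]
        rw [this, ex_const]
      have e2 : ex s p (fun W => if V ⊆ insert a W then g (insert a W) else 0) =
          p ^ (V.erase a).card * ex s p (fun W => g (insert a (W ∪ V.erase a))) := by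
        rw [← ih hV' (fun W => g (insert a W))]
        apply ex_congr
        intro W _
        have : V ⊆ insert a W ↔ V.erase a ⊆ W := by rw [subset_insert_iff]
        simp only [this]
      have e3 : ∀ W : Finset X, insert a (W ∪ V.erase a) = W ∪ V := by
        intro W
        ext x
        simp only [mem_insert, mem_union, mem_erase]
        by_cases hx : x = a
        · subst hx; simp [haV]
        · simp [hx]
      have e4 : ∀ W : Finset X, insert a W ∪ V = W ∪ V := by
        intro W
        ext x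
        simp only [mem_insert, mem_union]
        by_cases hx : x = a
        · subst hx; simp [haV]
        · simp [hx]
      simp only [e3] at e2
      simp only [e4]
      rw [e1, e2, card_erase_of_mem haV]
      have hpos : 0 < V.card := card_pos.2 ⟨a, haV⟩
      obtain ⟨k, hk⟩ : ∃ k, V.card = k + 1 := ⟨V.card - 1, by omega⟩
      rw [hk, Nat.add_sub_cancel, pow_succ]
      ring
    · have hV' : V ⊆ s := by
        intro x hx
        rcases mem_insert.1 (hV hx) with h | h
        · exact absurd (h ▸ hx) haV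
        · exact h
      have e2 : ex s p (fun W => if V ⊆ insert a W then g (insert a W) else 0) =
          p ^ V.card * ex s p (fun W => g (insert a (W ∪ V))) := by
        rw [← ih hV' (fun W => g (insert a W))]
        apply ex_congr
        intro W _
        have : V ⊆ insert a W ↔ V ⊆ W := by rw [subset_insert_iff_of_notMem haV]
        simp only [this]
      have e4 : ∀ W : Finset X, insert a W ∪ V = insert a (W ∪ V) := by
        intro W; rw [insert_union]
      simp only [e4]
      rw [e2, ih hV' g]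
      ring

open Classical in
/-- Harris inequality for a principal up-set and a decreasing event. -/
theorem ex_harris {s V : Finset X} (hV : V ⊆ s) {p : ℝ} (h0 : 0 ≤ p) (h1 : p ≤ 1)
    (g : Finset X → ℝ) (hg : ∀ W W', W ⊆ W' → g W' ≤ g W) :
    ex s p (fun W => if V ⊆ W then g W else 0) ≤ p ^ V.card * ex s p g := by
  rw [ex_cond hV]
  apply mul_le_mul_of_nonneg_left _ (pow_nonneg h0 _)
  apply ex_mono h0 h1
  intro W _
  exact hg W _ subset_union_left

variable [Fintype X] {ι : Type*} [DecidableEq ι]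

open Classical in
/-- The key lemma.  `I` is a family of sets of size at most `ℓ`, spread with parameter `c`;
`D i` are decreasing bad events of probability at most `τ`. -/
theorem key {c p M τ ε : ℝ} {K : ℝ} (hc : 0 ≤ c) (hM : 0 < M) (hp0 : 0 < p) (hp1 : p ≤ 1)
    (hK : 1 ≤ K) (hpK : K * c ≤ p) (hτ : 0 ≤ τ) (hε : 0 < ε)
    (ℓ ℓ' : ℕ) (I : Finset ι) (S : ι → Finset X)
    (hI : (I.card : ℝ) ≤ M)
    (hS : ∀ i ∈ I, (S i).card ≤ ℓ)
    (hsp : ∀ U : Finset X, ((I.filter (fun i => U ⊆ S i)).card : ℝ) ≤ c ^ U.card * M)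
    (D : ι → Finset X → Prop)
    (hD : ∀ i ∈ I, ∀ W W' : Finset X, W ⊆ W' → D i W' → D i W)
    (hDτ : ∀ i ∈ I, ex univ p (fun W => if D i W then (1 : ℝ) else 0) ≤ τ) :
    ex univ p (fun W => ((I.filter (fun i => ¬ ∃ i' ∈ I, S i' ⊆ W ∪ S i ∧
        (S i' \ W).card ≤ ℓ' ∧ ¬ D i' W)).card : ℝ)) ≤
      (ε + (1 / ε) * (2 ^ ℓ * (1 / K) ^ (ℓ' + 1) + 2 ^ ℓ * τ)) * M := by
  have hKpos : 0 < K := by linarith
  -- the counting function
  set N₀ : Finset X → ℝ := fun Z => ∑ i ∈ I, if S i ⊆ Z then (1 / p) ^ (S i).card else 0 with hN₀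
  set N₁ : ι → Finset X → ℝ := fun i W => ∑ i' ∈ I,
    if S i' ⊆ W ∪ S i ∧ ℓ' < (S i' \ W).card then (1 / p) ^ (S i').card else 0 with hN₁
  set N₂ : ι → Finset X → ℝ := fun i W => ∑ i' ∈ I,
    if S i' ⊆ W ∪ S i ∧ D i' W then (1 / p) ^ (S i').card else 0 with hN₂
  have hip : 0 < 1 / p := by positivity
  have hN₀nn : ∀ Z, 0 ≤ N₀ Z := by
    intro Z; simp only [hN₀]; apply sum_nonneg; intro i _; split_ifs <;> positivity
  have hN₁nn : ∀ i W, 0 ≤ N₁ i W := by
    intro i W; simp only [hN₁]; apply sum_nonneg; intro i _; split_ifs <;> positivity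
  have hN₂nn : ∀ i W, 0 ≤ N₂ i W := by
    intro i W; simp only [hN₂]; apply sum_nonneg; intro i _; split_ifs <;> positivity
  -- pointwise inequality
  have hpt : ∀ W : Finset X, W ⊆ univ →
      ((I.filter (fun i => ¬ ∃ i' ∈ I, S i' ⊆ W ∪ S i ∧ (S i' \ W).card ≤ ℓ' ∧ ¬ D i' W)).card : ℝ)
      ≤ (∑ i ∈ I, if N₀ (W ∪ S i) ≤ ε * M then (1 : ℝ) else 0) +
        ∑ i ∈ I, (1 / (ε * M)) * (N₁ i W + N₂ i W) := by
    intro W _
    rw [← sum_add_distrib, card_eq_sum_ones, Nat.cast_sum, sum_filter]
    apply sum_le_sum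
    intro i hi
    have hnn : 0 ≤ (1 / (ε * M)) * (N₁ i W + N₂ i W) := by
      have := hN₁nn i W
      have := hN₂nn i W
      positivity
    by_cases hok : ∃ i' ∈ I, S i' ⊆ W ∪ S i ∧ (S i' \ W).card ≤ ℓ' ∧ ¬ D i' W
    · rw [if_neg (not_not.2 hok)]
      have : (0 : ℝ) ≤ if N₀ (W ∪ S i) ≤ ε * M then (1 : ℝ) else 0 := by
        split_ifs <;> norm_num
      linarith
    · rw [if_pos hok]
      by_cases hN : N₀ (W ∪ S i) ≤ ε * M
      · rw [if_pos hN]
        simp only [Nat.cast_one]
        linarith
      · rw [if_neg hN]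
        have hle : N₀ (W ∪ S i) ≤ N₁ i W + N₂ i W := by
          simp only [hN₀, hN₁, hN₂]
          rw [← sum_add_distrib]
          apply sum_le_sum
          intro i' hi'
          have hpos : 0 ≤ (1 / p) ^ (S i').card := by positivity
          by_cases hsub : S i' ⊆ W ∪ S i
          · by_cases hsz : ℓ' < (S i' \ W).card
            · rw [if_pos hsub, if_pos (show S i' ⊆ W ∪ S i ∧ ℓ' < (S i' \ W).card from
                ⟨hsub, hsz⟩)]
              split_ifs <;> linarith
            · have hDi : D i' W := by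
                by_contra hD'
                exact hok ⟨i', hi', hsub, not_lt.1 hsz, hD'⟩
              rw [if_pos hsub, if_pos (show S i' ⊆ W ∪ S i ∧ D i' W from ⟨hsub, hDi⟩)]
              split_ifs <;> linarith
          · rw [if_neg hsub]
            split_ifs <;> positivity
        have hεM : 0 < ε * M := by positivity
        have h1 : ε * M < N₁ i W + N₂ i W := lt_of_lt_of_le (not_le.1 hN) hle
        have h2 : 1 ≤ (1 / (ε * M)) * (N₁ i W + N₂ i W) := by
          rw [one_div, inv_mul_eq_div, le_div_iff₀ hεM]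
          linarith
        simp only [Nat.cast_one]
        linarith
  refine (ex_mono hp0.le hp1 hpt).trans ?_
  rw [ex_add, ex_sum, ex_sum]
  -- first part
  have hpart1 : ∑ i ∈ I, ex univ p (fun W => if N₀ (W ∪ S i) ≤ ε * M then (1 : ℝ) else 0) ≤
      ε * M := by
    have e1 : ∀ i ∈ I, ex univ p (fun W => if N₀ (W ∪ S i) ≤ ε * M then (1 : ℝ) else 0) =
        ex univ p (fun Z => (if S i ⊆ Z then (1 / p) ^ (S i).card *
          (if N₀ Z ≤ ε * M then (1 : ℝ) else 0) else 0)) := by
      intro i _
      have h := ex_cond (subset_univ (S i)) p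
        (fun Z => (1 / p) ^ (S i).card * (if N₀ Z ≤ ε * M then (1 : ℝ) else 0))
      rw [h, ex_const_mul, ← mul_assoc, ← mul_pow, mul_one_div_cancel hp0.ne', one_pow, one_mul]
    rw [sum_congr rfl e1, ← ex_sum]
    have e2 : ∀ Z : Finset X, Z ⊆ univ → (∑ i ∈ I, if S i ⊆ Z then (1 / p) ^ (S i).card *
          (if N₀ Z ≤ ε * M then (1 : ℝ) else 0) else 0) ≤ ε * M := by
      intro Z _
      by_cases hZ : N₀ Z ≤ ε * M
      · simp only [hZ, if_true, mul_one]
        exact hZ
      · simp only [hZ, if_false, mul_zero, ite_self, sum_const_zero]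
        positivity
    refine (ex_mono hp0.le hp1 e2).trans ?_
    rw [ex_const]
  -- expectation of 1/p-weights
  have hprob : ∀ i ∈ I, ∀ i' ∈ I, ∀ g : Finset X → ℝ,
      (∀ W W' : Finset X, W ⊆ W' → g W' ≤ g W) → 
      ex univ p (fun W => if S i' \ S i ⊆ W then g W else 0) ≤
        p ^ (S i' \ S i).card * ex univ p g := by
    intro i _ i' _ g hg
    exact ex_harris (subset_univ _) hp0.le hp1 g hg
  have hsubiff : ∀ i i' : ι, ∀ W : Finset X, S i' ⊆ W ∪ S i ↔ S i' \ S i ⊆ W := by
    intro i i' W
    constructor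
    · intro h x hx
      rw [mem_sdiff] at hx
      rcases mem_union.1 (h hx.1) with h1 | h1
      · exact h1
      · exact absurd h1 hx.2
    · intro h x hx
      by_cases h1 : x ∈ S i
      · exact mem_union_right _ h1
      · exact mem_union_left _ (h (mem_sdiff.2 ⟨hx, h1⟩))
  have hwt : ∀ i i' : ι, (1 / p) ^ (S i').card * p ^ (S i' \ S i).card =
      (1 / p) ^ (S i ∩ S i').card := by
    intro i i'
    have h1 : (S i').card = (S i ∩ S i').card + (S i' \ S i).card := by
      rw [inter_comm]
      exact (card_inter_add_card_sdiff _ _).symm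
    rw [h1, pow_add, mul_assoc, ← mul_pow, one_div_mul_cancel hp0.ne', one_pow, mul_one]
  -- overlap sums
  have hover : ∀ i ∈ I, ∀ u : ℕ, ∑ i' ∈ I, (if u ≤ (S i ∩ S i').card then
      (1 / p) ^ (S i ∩ S i').card else 0) ≤ 2 ^ ℓ * (1 / K) ^ u * M := by
    intro i hi u
    have e1 : ∀ i' ∈ I, (if u ≤ (S i ∩ S i').card then (1 / p) ^ (S i ∩ S i').card else 0) ≤
        ∑ U ∈ (S i).powerset, if u ≤ U.card ∧ U ⊆ S i' then (1 / p) ^ U.card else 0 := by
      intro i' _
      split_ifs with hu
      · have h1 : S i ∩ S i' ∈ (S i).powerset := mem_powerset.2 inter_subset_left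
        have h2 := single_le_sum
          (f := fun U : Finset X => if u ≤ U.card ∧ U ⊆ S i' then (1 / p) ^ U.card else 0)
          (fun U _ => by split_ifs <;> positivity) h1
        have h3 : (if u ≤ (S i ∩ S i').card ∧ S i ∩ S i' ⊆ S i' then
            (1 / p) ^ (S i ∩ S i').card else 0) = (1 / p) ^ (S i ∩ S i').card :=
          if_pos ⟨hu, inter_subset_right⟩
        rw [h3] at h2
        exact h2
      · apply sum_nonneg
        intro U _
        split_ifs <;> positivity
    refine (sum_le_sum e1).trans ?_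
    rw [sum_comm]
    have e2 : ∀ U ∈ (S i).powerset, ∑ i' ∈ I, (if u ≤ U.card ∧ U ⊆ S i' then
        (1 / p) ^ U.card else 0) ≤ (1 / K) ^ u * M := by
      intro U _
      by_cases hu : u ≤ U.card
      · simp only [hu, true_and]
        rw [← sum_filter, sum_const, nsmul_eq_mul]
        have h1 := hsp U
        calc ((I.filter (fun i' => U ⊆ S i')).card : ℝ) * (1 / p) ^ U.card
            ≤ (c ^ U.card * M) * (1 / p) ^ U.card :=
              mul_le_mul_of_nonneg_right h1 (by positivity)
          _ = (c * (1 / p)) ^ U.card * M := by rw [mul_pow]; ring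
          _ ≤ (1 / K) ^ U.card * M := by
              apply mul_le_mul_of_nonneg_right _ hM.le
              apply pow_le_pow_left₀ (by positivity)
              rw [mul_one_div, div_le_div_iff₀ hp0 hKpos]
              linarith
          _ ≤ (1 / K) ^ u * M := by
              apply mul_le_mul_of_nonneg_right _ hM.le
              apply pow_le_pow_of_le_one (by positivity) _ hu
              rw [div_le_one hKpos]; exact hK
      · simp only [hu, false_and, if_false, sum_const_zero]
        positivity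
    refine (sum_le_sum e2).trans ?_
    rw [sum_const, card_powerset, nsmul_eq_mul]
    have h2 : ((2 ^ (S i).card : ℕ) : ℝ) ≤ 2 ^ ℓ := by
      push_cast
      exact pow_le_pow_right₀ (by norm_num) (hS i hi)
    have h3 : 0 ≤ (1 / K) ^ u * M := by positivity
    calc ((2 ^ (S i).card : ℕ) : ℝ) * ((1 / K) ^ u * M) ≤ 2 ^ ℓ * ((1 / K) ^ u * M) :=
          mul_le_mul_of_nonneg_right h2 h3
      _ = 2 ^ ℓ * (1 / K) ^ u * M := by ring
  -- N₁
  have hE₁ : ∀ i ∈ I, ex univ p (N₁ i) ≤ 2 ^ ℓ * (1 / K) ^ (ℓ' + 1) * M := by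
    intro i hi
    refine le_trans ?_ (hover i hi (ℓ' + 1))
    simp only [hN₁]
    rw [ex_sum]
    apply sum_le_sum
    intro i' hi'
    by_cases hu : ℓ' + 1 ≤ (S i ∩ S i').card
    · rw [if_pos hu]
      have h1 : ex univ p (fun W => if S i' ⊆ W ∪ S i ∧ ℓ' < (S i' \ W).card then
          (1 / p) ^ (S i').card else 0) ≤
          ex univ p (fun W => if S i' \ S i ⊆ W then (1 / p) ^ (S i').card else 0) := by
        apply ex_mono hp0.le hp1
        intro W _
        by_cases hsub : S i' \ S i ⊆ W
        · rw [if_pos hsub]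
          split_ifs
          · exact le_rfl
          · positivity
        · have : ¬ (S i' ⊆ W ∪ S i ∧ ℓ' < (S i' \ W).card) := by
            rw [hsubiff]
            exact fun h => hsub h.1
          rw [if_neg this, if_neg hsub]
      refine h1.trans ?_
      refine (hprob i hi i' hi' (fun _ => (1 / p) ^ (S i').card) (fun _ _ _ => le_rfl)).trans ?_
      rw [ex_const, mul_comm, hwt]
    · rw [if_neg hu]
      have h1 : ex univ p (fun W => if S i' ⊆ W ∪ S i ∧ ℓ' < (S i' \ W).card then
          (1 / p) ^ (S i').card else 0) = ex (univ : Finset X) p (fun _ => 0) := by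
        apply ex_congr
        intro W _
        rw [if_neg]
        rintro ⟨h2, h3⟩
        apply hu
        have h4 : S i' \ W ⊆ S i ∩ S i' := by
          intro x hx
          rw [mem_sdiff] at hx
          rcases mem_union.1 (h2 hx.1) with h | h
          · exact absurd h hx.2
          · exact mem_inter.2 ⟨h, hx.1⟩
        have h5 := card_le_card h4
        omega
      rw [h1, ex_const]
  -- N₂
  have hE₂ : ∀ i ∈ I, ex univ p (N₂ i) ≤ 2 ^ ℓ * τ * M := by
    intro i hi
    have h0 := hover i hi 0
    simp only [Nat.zero_le, if_true, pow_zero, mul_one] at h0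
    have h00 : ∑ i' ∈ I, (1 / p) ^ (S i ∩ S i').card * τ ≤ 2 ^ ℓ * τ * M := by
      rw [← sum_mul]
      calc (∑ i' ∈ I, (1 / p) ^ (S i ∩ S i').card) * τ ≤ (2 ^ ℓ * M) * τ :=
            mul_le_mul_of_nonneg_right h0 hτ
        _ = 2 ^ ℓ * τ * M := by ring
    refine le_trans ?_ h00
    simp only [hN₂]
    rw [ex_sum]
    apply sum_le_sum
    intro i' hi'
    have h1 : ex univ p (fun W => if S i' ⊆ W ∪ S i ∧ D i' W then
        (1 / p) ^ (S i').card else 0) =
        ex univ p (fun W => if S i' \ S i ⊆ W then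
          (1 / p) ^ (S i').card * (if D i' W then (1 : ℝ) else 0) else 0) := by
      apply ex_congr
      intro W _
      simp only [hsubiff]
      by_cases h2 : S i' \ S i ⊆ W
      · by_cases h3 : D i' W
        · simp [h2, h3]
        · simp [h3]
      · simp [h2]
    rw [h1]
    have hanti : ∀ W W' : Finset X, W ⊆ W' →
        (1 / p) ^ (S i').card * (if D i' W' then (1 : ℝ) else 0) ≤
        (1 / p) ^ (S i').card * (if D i' W then (1 : ℝ) else 0) := by
      intro W W' hWW'
      apply mul_le_mul_of_nonneg_left _ (by positivity)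
      by_cases h3 : D i' W'
      · rw [if_pos h3, if_pos (hD i' hi' W W' hWW' h3)]
      · rw [if_neg h3]
        split_ifs <;> norm_num
    refine (hprob i hi i' hi' _ hanti).trans ?_
    rw [ex_const_mul, ← mul_assoc, mul_comm (p ^ _) _, hwt]
    exact mul_le_mul_of_nonneg_left (hDτ i' hi') (by positivity)
  have hpart2 : ∑ i ∈ I, ex univ p (fun W => 1 / (ε * M) * (N₁ i W + N₂ i W)) ≤
      (1 / ε) * (2 ^ ℓ * (1 / K) ^ (ℓ' + 1) + 2 ^ ℓ * τ) * M := by
    have h1 : ∀ i ∈ I, ex univ p (fun W => 1 / (ε * M) * (N₁ i W + N₂ i W)) ≤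
        1 / ε * (2 ^ ℓ * (1 / K) ^ (ℓ' + 1) + 2 ^ ℓ * τ) := by
      intro i hi
      rw [ex_const_mul, ex_add]
      have h2 := hE₁ i hi
      have h3 := hE₂ i hi
      calc 1 / (ε * M) * (ex univ p (N₁ i) + ex univ p (N₂ i))
          ≤ 1 / (ε * M) * (2 ^ ℓ * (1 / K) ^ (ℓ' + 1) * M + 2 ^ ℓ * τ * M) := by
            apply mul_le_mul_of_nonneg_left _ (by positivity)
            linarith
        _ = 1 / ε * (2 ^ ℓ * (1 / K) ^ (ℓ' + 1) + 2 ^ ℓ * τ) := by
            field_simp
    refine (sum_le_sum h1).trans ?_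
    rw [sum_const, nsmul_eq_mul]
    have h4 : 0 ≤ 1 / ε * (2 ^ ℓ * (1 / K) ^ (ℓ' + 1) + 2 ^ ℓ * τ) := by positivity
    calc (I.card : ℝ) * (1 / ε * (2 ^ ℓ * (1 / K) ^ (ℓ' + 1) + 2 ^ ℓ * τ))
        ≤ M * (1 / ε * (2 ^ ℓ * (1 / K) ^ (ℓ' + 1) + 2 ^ ℓ * τ)) :=
          mul_le_mul_of_nonneg_right hI h4
      _ = _ := by ring
  calc _ ≤ ε * M + (1 / ε) * (2 ^ ℓ * (1 / K) ^ (ℓ' + 1) + 2 ^ ℓ * τ) * M :=
        add_le_add hpart1 hpart2
    _ = _ := by ring

end Vale.Agent.P064h5
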