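import Vale.Agent.P064_h5.Spread

/-!
The logarithmic step: if every subset `S` of `H` has a small stabiliser then `H` is spread.
-/

namespace Vale.Agent.P064h5

open Finset Pointwise

set_option linter.unusedSectionVars false

variable {X : Type*} [Fintype X] [DecidableEq X] (G : Type*) [Group G] [Fintype G] [MulAction G X]

/-- number of `g` with `F ⊆ g • H` -/
def nin (H F : Finset X) : ℕ := (univ.filter (fun g : G => F ⊆ g • H)).card

theorem nin_le (H F : Finset X) : nin G H F ≤ Fintype.card G := card_le_univ _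

theorem nin_empty_right (H : Finset X) : nin G H ∅ = Fintype.card G := by
  simp [nin]

theorem nin_empty_left {F : Finset X} (hF : F.Nonempty) : nin G (∅ : Finset X) F = 0 := by
  unfold nin
  rw [card_eq_zero, filter_eq_empty_iff]
  intro g _ h
  rw [smul_finset_empty, subset_empty] at h
  exact hF.ne_empty h

theorem nin_smul (H F : Finset X) (a : G) : nin G H (a • F) = nin G H F := by
  unfold nin
  apply card_bij' (fun g _ => a⁻¹ * g) (fun g _ => a * g)
  · intro g hg
    simp only [mem_filter, mem_univ, true_and] at hg ⊢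
    rw [mul_smul]
    have := smul_finset_subset_smul_finset (a := a⁻¹) hg
    rwa [inv_smul_smul] at this
  · intro g hg
    simp only [mem_filter, mem_univ, true_and] at hg ⊢
    rw [mul_smul]
    exact smul_finset_subset_smul_finset hg
  · intro g _; simp
  · intro g _; simp

theorem nin_eq_inv (J K : Finset X) :
    nin G J K = (univ.filter (fun g : G => g • K ⊆ J)).card := by
  unfold nin
  refine card_bij' (fun g _ => g⁻¹) (fun g _ => g⁻¹) ?_ ?_ ?_ ?_
  · intro g hg
    simp only [mem_filter, mem_univ, true_and] at hg ⊢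
    have := smul_finset_subset_smul_finset (a := g⁻¹) hg
    rwa [inv_smul_smul] at this
  · intro g hg
    simp only [mem_filter, mem_univ, true_and] at hg ⊢
    have := smul_finset_subset_smul_finset (a := g⁻¹) hg
    rwa [inv_smul_smul] at this
  · intro g _; simp
  · intro g _; simp

/-- The convolution identity. -/
theorem nin_mul_nin (H J F : Finset X) :
    nin G H J * nin G H F = ∑ γ : G, nin G H (J ∪ γ • F) := by
  unfold nin
  rw [← card_product, ← card_sigma]
  apply card_bij' (fun x _ => (⟨x.1 * x.2⁻¹, x.1⟩ : (_ : G) × G))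
    (fun y _ => ((y.2, y.1⁻¹ * y.2) : G × G))
  · intro x hx
    simp only [mem_product, mem_filter, mem_univ, true_and] at hx
    simp only [mem_sigma, mem_filter, mem_univ, true_and]
    refine union_subset hx.1 ?_
    have := smul_finset_subset_smul_finset (a := x.1 * x.2⁻¹) hx.2
    rwa [smul_smul, inv_mul_cancel_right] at this
  · intro y hy
    simp only [mem_sigma, mem_filter, mem_univ, true_and] at hy
    simp only [mem_product, mem_filter, mem_univ, true_and]
    refine ⟨subset_union_left.trans hy, ?_⟩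
    have := smul_finset_subset_smul_finset (a := y.1⁻¹) (subset_union_right.trans hy)
    rwa [inv_smul_smul, smul_smul] at this
  · intro x _
    simp
  · intro y _
    simp

/-- cosets of stabilisers -/
theorem card_transporter_le (J S : Finset X) :
    (univ.filter (fun g : G => g • J = S)).card ≤ (univ.filter (fun g : G => g • J = J)).card := by
  rcases (univ.filter (fun g : G => g • J = S)).eq_empty_or_nonempty with h | ⟨g₀, hg₀⟩
  · rw [h]; simp
  · simp only [mem_filter, mem_univ, true_and] at hg₀
    apply card_le_card_of_injOn (fun g => g₀⁻¹ * g)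
    · intro g hg
      rw [mem_coe, mem_filter] at hg ⊢
      refine ⟨mem_univ _, ?_⟩
      rw [mul_smul, hg.2, ← hg₀, inv_smul_smul]
    · intro a _ b _ hab
      exact mul_left_cancel hab

theorem nin_le_two_pow {q : ℝ} (hq : 0 ≤ q) (H J : Finset X)
    (hJ : ((univ.filter (fun g : G => g • J = J)).card : ℝ) ≤ q ^ J.card * Fintype.card G) :
    (nin G H J : ℝ) ≤ 2 ^ H.card * (q ^ J.card * Fintype.card G) := by
  have h1 : (univ.filter (fun g : G => g • J ⊆ H)).card =
      ∑ S ∈ H.powerset, (univ.filter (fun g : G => g • J = S)).card := by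
    rw [card_eq_sum_card_fiberwise (f := fun g : G => g • J) (t := H.powerset)]
    · apply sum_congr rfl
      intro S hS
      congr 1
      ext g
      simp only [mem_filter, mem_univ, true_and]
      constructor
      · rintro ⟨_, h⟩; exact h
      · intro h; exact ⟨by rw [h]; exact mem_powerset.1 hS, h⟩
    · intro g hg
      rw [mem_coe, mem_filter] at hg
      exact mem_coe.2 (mem_powerset.2 hg.2)
  rw [nin_eq_inv, h1]
  push_cast
  have h2 : ∀ S ∈ H.powerset, ((univ.filter (fun g : G => g • J = S)).card : ℝ) ≤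
      q ^ J.card * Fintype.card G := by
    intro S _
    refine le_trans ?_ hJ
    exact_mod_cast card_transporter_le G J S
  refine (sum_le_sum h2).trans ?_
  rw [sum_const, card_powerset, nsmul_eq_mul]
  push_cast
  exact le_rfl

theorem log_step {q : ℝ} (hq : 0 ≤ q) (ℓ : ℕ) : ∀ H : Finset X, H.card ≤ ℓ →
    (∀ S ⊆ H, ((univ.filter (fun g : G => g • S = S)).card : ℝ) ≤ q ^ S.card * Fintype.card G) →
    ∀ F : Finset X, (nin G H F : ℝ) ≤ (4 * rounds ℓ * q) ^ F.card * Fintype.card G := by
  induction ℓ using Nat.strong_induction_on with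
  | _ ℓ ih =>
  intro H hH hyp F
  have hGpos : (0 : ℝ) < Fintype.card G := by exact_mod_cast Fintype.card_pos
  rcases F.eq_empty_or_nonempty with hF | hF
  · subst hF
    rw [nin_empty_right]
    simp
  rcases H.eq_empty_or_nonempty with hHe | hHne
  · subst hHe
    rw [nin_empty_left G hF]
    have : 0 ≤ 4 * (rounds ℓ : ℝ) * q := by positivity
    simp only [Nat.cast_zero]
    positivity
  have hℓ : 1 ≤ ℓ := (card_pos.2 hHne).trans_le hH
  have hqpos : 0 < q := by
    rcases hq.lt_or_eq with h | h
    · exact h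
    · exfalso
      have h1 := hyp H (Subset.refl _)
      rw [← h, zero_pow (card_pos.2 hHne).ne', zero_mul] at h1
      have h2 : 0 < (univ.filter (fun g : G => g • H = H)).card :=
        card_pos.2 ⟨1, by simp⟩
      have h3 : (0 : ℝ) < ((univ.filter (fun g : G => g • H = H)).card : ℝ) := by exact_mod_cast h2
      linarith
  set c : ℝ := 4 * q with hc
  have hcpos : 0 < c := by positivity
  -- the maximiser
  obtain ⟨J₀, -, hmax₀⟩ := exists_max_image (univ : Finset (Finset X))
    (fun U => (nin G H U : ℝ) / c ^ U.card) ⟨∅, mem_univ _⟩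
  have hJ₀1 : (Fintype.card G : ℝ) ≤ (nin G H J₀ : ℝ) / c ^ J₀.card := by
    have := hmax₀ ∅ (mem_univ _)
    simpa [nin_empty_right] using this
  have hJ₀pos : 0 < nin G H J₀ := by
    rcases Nat.eq_zero_or_pos (nin G H J₀) with h | h
    · rw [h] at hJ₀1
      simp only [Nat.cast_zero, zero_div] at hJ₀1
      linarith
    · exact h
  obtain ⟨g₀, hg₀⟩ := card_pos.1 hJ₀pos
  simp only [mem_filter, mem_univ, true_and] at hg₀
  set J : Finset X := g₀⁻¹ • J₀ with hJdef
  have hJH : J ⊆ H := by
    have := smul_finset_subset_smul_finset (a := g₀⁻¹) hg₀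
    rwa [inv_smul_smul] at this
  have hJcard : J.card = J₀.card := card_smul_finset _ _
  have hJnin : nin G H J = nin G H J₀ := nin_smul G H J₀ g₀⁻¹
  have hmax : ∀ U : Finset X, (nin G H U : ℝ) / c ^ U.card ≤ (nin G H J : ℝ) / c ^ J.card := by
    intro U
    rw [hJcard, hJnin]
    exact hmax₀ U (mem_univ _)
  have hJ1 : (Fintype.card G : ℝ) ≤ (nin G H J : ℝ) / c ^ J.card := by
    rw [hJcard, hJnin]; exact hJ₀1
  have hJpos : (0 : ℝ) < nin G H J := by rw [hJnin]; exact_mod_cast hJ₀pos
  have hcJ : 0 < c ^ J.card := pow_pos hcpos _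
  -- the size of the maximiser
  have hsize : 2 * J.card ≤ H.card := by
    have h1 := nin_le_two_pow G hq H J (hyp J hJH)
    have h2 : (Fintype.card G : ℝ) * c ^ J.card ≤ nin G H J := by
      rwa [le_div_iff₀ hcJ] at hJ1
    have h3 : (Fintype.card G : ℝ) * (4 ^ J.card * q ^ J.card) ≤
        2 ^ H.card * (q ^ J.card * Fintype.card G) := by
      rw [← mul_pow, ← hc]
      exact h2.trans h1
    have h4 : (4 : ℝ) ^ J.card ≤ 2 ^ H.card := by
      have hpos : 0 < q ^ J.card * (Fintype.card G : ℝ) := by positivity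
      have h5 : (4 : ℝ) ^ J.card * (q ^ J.card * (Fintype.card G : ℝ)) ≤
          2 ^ H.card * (q ^ J.card * (Fintype.card G : ℝ)) := by
        linarith
      exact le_of_mul_le_mul_right h5 hpos
    have h6 : (2 : ℝ) ^ (2 * J.card) ≤ 2 ^ H.card := by
      rw [pow_mul]; norm_num; exact h4
    exact (pow_le_pow_iff_right₀ (by norm_num : (1 : ℝ) < 2)).1 h6
  -- recursion
  have hrec := ih (ℓ / 2) (by omega) J (by omega) (fun S hS => hyp S (hS.trans hJH))
  -- convolution bound
  have hconv : (nin G H J : ℝ) * nin G H F ≤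
      ∑ γ : G, (nin G H J : ℝ) * c ^ ((γ • F) \ J).card := by
    have := nin_mul_nin G H J F
    have h1 : (nin G H J : ℝ) * nin G H F = ∑ γ : G, (nin G H (J ∪ γ • F) : ℝ) := by
      exact_mod_cast this
    rw [h1]
    apply sum_le_sum
    intro γ _
    have h2 := hmax (J ∪ γ • F)
    have h3 : (J ∪ γ • F).card = J.card + ((γ • F) \ J).card := by
      rw [← union_sdiff_self_eq_union, card_union_of_disjoint disjoint_sdiff]
    rw [h3, pow_add, div_le_div_iff₀ (by positivity) hcJ] at h2
    have h4 : (nin G H (J ∪ γ • F) : ℝ) * c ^ J.card ≤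
        ((nin G H J : ℝ) * c ^ ((γ • F) \ J).card) * c ^ J.card := by
      linarith
    exact le_of_mul_le_mul_right h4 hcJ
  rw [← mul_sum] at hconv
  have hF1 : (nin G H F : ℝ) ≤ ∑ γ : G, c ^ ((γ • F) \ J).card :=
    le_of_mul_le_mul_left hconv hJpos
  -- expand
  have hexp : ∀ γ : G, c ^ ((γ • F) \ J).card ≤
      ∑ K ∈ F.powerset, if γ • K ⊆ J then c ^ (F.card - K.card) else 0 := by
    intro γ
    set K₀ := F.filter (fun x => γ • x ∈ J) with hK₀
    have hK₀F : K₀ ⊆ F := filter_subset _ _
    have h1 : γ • K₀ ⊆ J := by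
      intro y hy
      obtain ⟨x, hx, rfl⟩ := mem_smul_finset.1 hy
      exact (mem_filter.1 hx).2
    have h2 : (γ • F) \ J = γ • (F \ K₀) := by
      ext y
      simp only [mem_sdiff, mem_smul_finset, hK₀, mem_filter, not_and]
      constructor
      · rintro ⟨⟨x, hx, rfl⟩, hy⟩
        exact ⟨x, ⟨hx, fun _ => hy⟩, rfl⟩
      · rintro ⟨x, ⟨hx, hx'⟩, rfl⟩
        exact ⟨⟨x, hx, rfl⟩, hx' hx⟩
    have h3 : ((γ • F) \ J).card = F.card - K₀.card := by
      rw [h2, card_smul_finset, card_sdiff_of_subset hK₀F]
    rw [h3]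
    have h4 : c ^ (F.card - K₀.card) =
        (if γ • K₀ ⊆ J then c ^ (F.card - K₀.card) else 0) := by rw [if_pos h1]
    rw [h4]
    refine single_le_sum (f := fun K : Finset X => if γ • K ⊆ J then c ^ (F.card - K.card) else 0)
      ?_ (mem_powerset.2 hK₀F)
    intro K _
    split_ifs
    · positivity
    · exact le_rfl
  have hF2 : (nin G H F : ℝ) ≤ ∑ K ∈ F.powerset, c ^ (F.card - K.card) * nin G J K := by
    refine hF1.trans ((sum_le_sum (fun γ _ => hexp γ)).trans ?_)
    rw [sum_comm]
    apply le_of_eq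
    apply sum_congr rfl
    intro K _
    rw [nin_eq_inv, ← sum_filter, sum_const, nsmul_eq_mul]
    ring
  refine hF2.trans ?_
  have hF3 : ∑ K ∈ F.powerset, c ^ (F.card - K.card) * (nin G J K : ℝ) ≤
      ∑ K ∈ F.powerset, (4 * (rounds (ℓ / 2) : ℝ) * q) ^ K.card * c ^ (F.card - K.card) *
        Fintype.card G := by
    apply sum_le_sum
    intro K _
    have h1 := hrec K
    have h2 : 0 ≤ c ^ (F.card - K.card) := by positivity
    calc c ^ (F.card - K.card) * (nin G J K : ℝ)
        ≤ c ^ (F.card - K.card) * ((4 * (rounds (ℓ / 2) : ℝ) * q) ^ K.card * Fintype.card G) :=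
          mul_le_mul_of_nonneg_left h1 h2
      _ = _ := by ring
  refine hF3.trans ?_
  rw [← sum_mul, sum_pow_mul_eq_add_pow]
  apply le_of_eq
  rw [rounds_pos hℓ, hc]
  push_cast
  ring

end Vale.Agent.P064h5
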