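import Vale.Agent.P064_h5.Key

/-!
Progress of placements in a chain of subsets, and the one step advance.
-/

namespace Vale.Agent.P064h5

open Finset Pointwise

set_option linter.unusedSectionVars false

variable {X : Type*} [Fintype X] [DecidableEq X] (G : Type*) [Group G] [Fintype G]
  [DecidableEq G] [MulAction G X]

/-- `Prog G J j A g V`: the placement `A` (a translate of `J j`) has made progress `g`
towards being extended to a translate of `J 0` inside `A ∪ V`. -/
def Prog (J : ℕ → Finset X) : ℕ → Finset X → ℕ → Finset X → Prop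
  | 0, _, _, _ => True
  | (j + 1), A, g, V => ∃ Λ : Finset G, (∀ γ ∈ Λ, A ⊆ γ • J j) ∧
      (1 - 1 / 2 * (1 / 16 : ℝ) ^ ((J j).card / 2 ^ g)) * (nin G (J j) A : ℝ) ≤ (Λ.card : ℝ) ∧
      ∀ γ ∈ Λ, ∃ S P : Finset X, S ⊆ γ • J j \ A ∧ S.card ≤ (J j).card / 2 ^ g ∧
        (∃ b : G, P = b • J j) ∧ A ⊆ P ∧ P ⊆ A ∪ V ∪ S ∧ Prog J j P g V

theorem Prog.mono {J : ℕ → Finset X} {j : ℕ} {A : Finset X} {g : ℕ} {V V' : Finset X}
    (hV : V ⊆ V') (h : Prog G J j A g V) : Prog G J j A g V' := by
  induction j generalizing A with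
  | zero => trivial
  | succ j ih =>
    obtain ⟨Λ, h1, h2, h3⟩ := h
    refine ⟨Λ, h1, h2, ?_⟩
    intro γ hγ
    obtain ⟨S, P, hS, hSc, hPo, hAP, hP, hprog⟩ := h3 γ hγ
    exact ⟨S, P, hS, hSc, hPo, hAP,
      hP.trans (union_subset_union_left (union_subset_union_right hV)), ih hprog⟩

theorem prog_zero (J : ℕ → Finset X) (j : ℕ) (A : Finset X) (V : Finset X) :
    Prog G J j A 0 V := by
  induction j generalizing A with
  | zero => trivial
  | succ j ih =>
    refine ⟨univ.filter (fun γ : G => A ⊆ γ • J j), ?_, ?_, ?_⟩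
    · intro γ hγ
      exact (mem_filter.1 hγ).2
    · unfold nin
      have h1 : (0 : ℝ) ≤ ((univ.filter (fun γ : G => A ⊆ γ • J j)).card : ℝ) := Nat.cast_nonneg _
      have h2 : (0 : ℝ) ≤ 1 / 2 * (1 / 16 : ℝ) ^ ((J j).card / 2 ^ 0) := by positivity
      nlinarith
    · intro γ hγ
      have hA : A ⊆ γ • J j := (mem_filter.1 hγ).2
      refine ⟨γ • J j \ A, γ • J j, Subset.refl _, ?_, ⟨γ, rfl⟩, hA, ?_, ih _⟩
      · rw [pow_zero, Nat.div_one]
        calc (γ • J j \ A).card ≤ (γ • J j).card := card_le_card sdiff_subset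
          _ = (J j).card := card_smul_finset _ _
      · intro x hx
        by_cases hxA : x ∈ A
        · exact mem_union_left _ (mem_union_left _ hxA)
        · exact mem_union_right _ (mem_sdiff.2 ⟨hx, hxA⟩)

theorem nin_pos_of {H A : Finset X} {a : G} (h : A ⊆ a • H) : 0 < nin G H A :=
  card_pos.2 ⟨a, mem_filter.2 ⟨mem_univ _, h⟩⟩

/-- If the progress is complete, then `A ∪ V` contains a translate of `J 0`. -/
theorem prog_final {J : ℕ → Finset X} (hsub : ∀ j, J (j + 1) ⊆ J j) {g : ℕ}
    (hg : (J 0).card / 2 ^ g = 0) {V : Finset X} {j : ℕ} {A : Finset X}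
    (hA : ∃ a : G, A = a • J j) (hAV : A ⊆ V) (h : Prog G J j A g V) :
    ∃ b : G, b • J 0 ⊆ V := by
  have hle : ∀ i, (J i).card ≤ (J 0).card := by
    intro i
    induction i with
    | zero => exact le_rfl
    | succ i ih => exact (card_le_card (hsub i)).trans ih
  induction j generalizing A with
  | zero =>
    obtain ⟨a, rfl⟩ := hA
    exact ⟨a, hAV⟩
  | succ j ih =>
    obtain ⟨Λ, h1, h2, h3⟩ := h
    have hz : (J j).card / 2 ^ g = 0 := by
      have := Nat.div_le_div_right (c := 2 ^ g) (hle j)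
      rw [hg] at this
      exact Nat.le_zero.1 this
    obtain ⟨a, rfl⟩ := hA
    have hpos : 0 < nin G (J j) (a • J (j + 1)) :=
      nin_pos_of G (smul_finset_subset_smul_finset (hsub j))
    have hΛ : 0 < Λ.card := by
      rw [hz] at h2
      have h4 : (0 : ℝ) < nin G (J j) (a • J (j + 1)) := by exact_mod_cast hpos
      have h5 : (0 : ℝ) < Λ.card := by
        refine lt_of_lt_of_le ?_ h2
        simp only [pow_zero, mul_one]
        linarith
      exact_mod_cast h5
    obtain ⟨γ, hγ⟩ := card_pos.1 hΛ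
    obtain ⟨S, P, hS, hSc, hPo, hAP, hP, hprog⟩ := h3 γ hγ
    rw [hz] at hSc
    have hSe : S = ∅ := card_eq_zero.1 (Nat.le_zero.1 hSc)
    subst hSe
    refine ih hPo ?_ hprog
    intro x hx
    rcases mem_union.1 (hP hx) with h | h
    · rcases mem_union.1 h with h | h
      · exact hAV h
      · exact h
    · exact absurd h (notMem_empty x)

/-- bound for the failure probability of an advance -/
noncomputable def tb (J : ℕ → Finset X) : ℕ → ℕ → ℝ
  | 0, _ => 0
  | (j + 1), g => 3 * (1 / 16) ^ (max 1 ((J j).card / 2 ^ g))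

theorem tb_nonneg (J : ℕ → Finset X) (j g : ℕ) : 0 ≤ tb J j g := by
  cases j with
  | zero => exact le_rfl
  | succ j => unfold tb; positivity

theorem tb_le (J : ℕ → Finset X) (j g : ℕ) : tb J j g ≤ 3 / 16 := by
  cases j with
  | zero => unfold tb; norm_num
  | succ j =>
    unfold tb
    have : (1 / 16 : ℝ) ^ (max 1 ((J j).card / 2 ^ g)) ≤ (1 / 16) ^ 1 :=
      pow_le_pow_of_le_one (by norm_num) (by norm_num) (le_max_left _ _)
    linarith

open Classical in
theorem step {c p : ℝ} (hc : 0 < c) (hp0 : 0 < p) (hp1 : p ≤ 1) (hpK : 2 ^ 34 * c ≤ p)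
    {J : ℕ → Finset X} (hsub : ∀ j, J (j + 1) ⊆ J j) (h5 : ∀ j, 5 * (J (j + 1)).card ≤ (J j).card)
    (hmax : ∀ j (U : Finset X), (nin G (J j) U : ℝ) * c ^ (J (j + 1)).card ≤
      nin G (J j) (J (j + 1)) * c ^ U.card) (j : ℕ) :
    ∀ (A : Finset X), (∃ a : G, A = a • J j) → ∀ (V : Finset X) (g : ℕ), Prog G J j A g V →
      ex univ p (fun W => if ¬ Prog G J j A (g + 1) (V ∪ W) then (1 : ℝ) else 0) ≤ tb J j g := by
  induction j with
  | zero =>
    intro A _ V g _
    have : ex univ p (fun W => if ¬ Prog G J 0 A (g + 1) (V ∪ W) then (1 : ℝ) else 0) =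
        ex (univ : Finset X) p (fun _ => 0) := by
      apply ex_congr
      intro W _
      rw [if_neg]
      exact not_not.2 trivial
    rw [this, ex_const]
    exact tb_nonneg J 0 g
  | succ j ih =>
    rintro A ⟨a, rfl⟩ V g hprog
    set A : Finset X := a • J (j + 1) with hAdef
    obtain ⟨Λ, h1, h2, h3⟩ := hprog
    choose! S P hS hSc hPo hAP hP hPprog using h3
    set M : ℝ := (nin G (J j) A : ℝ) with hM
    have hMpos : 0 < M := by
      rw [hM]
      exact_mod_cast nin_pos_of G (smul_finset_subset_smul_finset (hsub j))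
    have hAcard : A.card = (J (j + 1)).card := card_smul_finset _ _
    have hMJ : M = nin G (J j) (J (j + 1)) := by rw [hM, hAdef, nin_smul]
    have hΛM : (Λ.card : ℝ) ≤ M := by
      rw [hM]
      unfold nin
      have : Λ ⊆ univ.filter (fun γ : G => A ⊆ γ • J j) := by
        intro γ hγ
        exact mem_filter.2 ⟨mem_univ _, h1 γ hγ⟩
      exact_mod_cast card_le_card this
    set ℓ : ℕ := (J j).card / 2 ^ g with hℓ
    have hℓ' : (J j).card / 2 ^ (g + 1) = ℓ / 2 := by
      rw [pow_succ, ← Nat.div_div_eq_div_mul]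
    have htb : tb J (j + 1) g = 3 * (1 / 16) ^ (max 1 ℓ) := rfl
    rcases Nat.eq_zero_or_pos ℓ with hℓ0 | hℓpos
    · -- all fragments are empty
      have hΛpos : 0 < Λ.card := by
        rw [hℓ0] at h2
        have h5 : (0 : ℝ) < Λ.card := by
          refine lt_of_lt_of_le ?_ h2
          simp only [pow_zero, mul_one]
          linarith
        exact_mod_cast h5
      obtain ⟨γ₀, hγ₀⟩ := card_pos.1 hΛpos
      have hSe : S γ₀ = ∅ := by
        have := hSc γ₀ hγ₀
        rw [hℓ0] at this
        exact card_eq_zero.1 (Nat.le_zero.1 this)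
      have himp : ∀ W : Finset X, Prog G J j (P γ₀) (g + 1) (V ∪ W) →
          Prog G J (j + 1) A (g + 1) (V ∪ W) := by
        intro W hW
        refine ⟨Λ, h1, ?_, ?_⟩
        · rw [hℓ', hℓ0]
          rw [hℓ0] at h2
          exact h2
        · intro γ _
          refine ⟨∅, P γ₀, empty_subset _, Nat.zero_le _, hPo γ₀ hγ₀, hAP γ₀ hγ₀, ?_, hW⟩
          refine (hP γ₀ hγ₀).trans ?_
          rw [hSe]
          exact union_subset_union_left (union_subset_union_right subset_union_left)
      have h6 := ih (P γ₀) (hPo γ₀ hγ₀) V g (hPprog γ₀ hγ₀)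
      have h7 : ex univ p (fun W => if ¬ Prog G J (j + 1) A (g + 1) (V ∪ W) then (1 : ℝ) else 0) ≤
          ex univ p (fun W => if ¬ Prog G J j (P γ₀) (g + 1) (V ∪ W) then (1 : ℝ) else 0) := by
        apply ex_mono hp0.le hp1
        intro W _
        by_cases hW : Prog G J j (P γ₀) (g + 1) (V ∪ W)
        · rw [if_neg (not_not.2 (himp W hW)), if_neg (not_not.2 hW)]
        · rw [if_pos hW]
          split_ifs <;> norm_num
      refine h7.trans (h6.trans ?_)
      rw [htb, hℓ0]
      have := tb_le J j g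
      simp only [zero_le, sup_of_le_left, pow_one]
      linarith
    · -- main case
      have hmx : max 1 ℓ = ℓ := max_eq_right hℓpos
      have hτ : tb J j g ≤ (1 / 2) ^ (17 * ℓ) := by
        cases j with
        | zero => unfold tb; positivity
        | succ i =>
          unfold tb
          have hge : 5 * ℓ ≤ (J i).card / 2 ^ g := by
            rw [hℓ]
            calc 5 * ((J (i + 1)).card / 2 ^ g) ≤ (5 * (J (i + 1)).card) / 2 ^ g :=
                  Nat.mul_div_le_mul_div_assoc _ _ _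
              _ ≤ (J i).card / 2 ^ g := Nat.div_le_div_right (h5 i)
          have h6 : (1 / 16 : ℝ) ^ (max 1 ((J i).card / 2 ^ g)) ≤ (1 / 16) ^ (5 * ℓ) :=
            pow_le_pow_of_le_one (by norm_num) (by norm_num) (hge.trans (le_max_right _ _))
          have h7 : (1 / 16 : ℝ) ^ (5 * ℓ) = (1 / 2) ^ (17 * ℓ) * (1 / 8) ^ ℓ := by
            rw [pow_mul, pow_mul, ← mul_pow]
            norm_num
          have h8 : (1 / 8 : ℝ) ^ ℓ ≤ (1 / 8) ^ 1 :=
            pow_le_pow_of_le_one (by norm_num) (by norm_num) hℓpos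
          have h9 : (0 : ℝ) < (1 / 2) ^ (17 * ℓ) := by positivity
          nlinarith
      -- spread
      have hsp : ∀ U : Finset X, ((Λ.filter (fun γ => U ⊆ S γ)).card : ℝ) ≤ c ^ U.card * M := by
        intro U
        rcases (Λ.filter (fun γ => U ⊆ S γ)).eq_empty_or_nonempty with he | ⟨γ₁, hγ₁⟩
        · rw [he]
          simp only [card_empty, Nat.cast_zero]
          positivity
        · rw [mem_filter] at hγ₁
          have hdisj : Disjoint A U := by
            rw [disjoint_left]
            intro x hxA hxU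
            have := hS γ₁ hγ₁.1 (hγ₁.2 hxU)
            exact (mem_sdiff.1 this).2 hxA
          have h6 : Λ.filter (fun γ => U ⊆ S γ) ⊆
              univ.filter (fun γ : G => A ∪ U ⊆ γ • J j) := by
            intro γ hγ
            rw [mem_filter] at hγ
            refine mem_filter.2 ⟨mem_univ _, union_subset (h1 γ hγ.1) ?_⟩
            intro x hx
            exact (mem_sdiff.1 (hS γ hγ.1 (hγ.2 hx))).1
          have h7 : ((Λ.filter (fun γ => U ⊆ S γ)).card : ℝ) ≤ nin G (J j) (A ∪ U) := by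
            unfold nin
            exact_mod_cast card_le_card h6
          refine h7.trans ?_
          have h8 := hmax j (A ∪ U)
          rw [card_union_of_disjoint hdisj, hAcard, pow_add, ← hMJ] at h8
          have h9 : 0 < c ^ (J (j + 1)).card := pow_pos hc _
          have h10 : (nin G (J j) (A ∪ U) : ℝ) * c ^ (J (j + 1)).card ≤
              (c ^ U.card * M) * c ^ (J (j + 1)).card := by linarith
          exact le_of_mul_le_mul_right h10 h9
      have hkey := key (ι := G) (X := X) (c := c) (p := p) (M := M) (τ := tb J j g)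
        (ε := (1 / 2) ^ (8 * ℓ)) (K := 2 ^ 34) hc.le hMpos hp0 hp1 (by norm_num) hpK
        (tb_nonneg J j g) (by positivity) ℓ (ℓ / 2) Λ S hΛM hSc hsp
        (fun γ W => ¬ Prog G J j (P γ) (g + 1) (V ∪ W))
        (by
          intro γ _ W W' hWW' hD hprog'
          exact hD (hprog'.mono G (union_subset_union_right hWW')))
        (by
          intro γ hγ
          convert ih (P γ) (hPo γ hγ) V g (hPprog γ hγ))
      set bad : Finset X → Finset G := fun W => Λ.filter (fun i => ¬ ∃ i' ∈ Λ, S i' ⊆ W ∪ S i ∧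
        (S i' \ W).card ≤ ℓ / 2 ∧ ¬ ¬ Prog G J j (P i') (g + 1) (V ∪ W)) with hbad
      -- numerical bound
      have hnum : ((1 / 2 : ℝ) ^ (8 * ℓ) + 1 / (1 / 2) ^ (8 * ℓ) *
          (2 ^ ℓ * (1 / 2 ^ 34) ^ (ℓ / 2 + 1) + 2 ^ ℓ * tb J j g)) ≤ 3 * (1 / 2) ^ (8 * ℓ) := by
        have hx : (0 : ℝ) < (1 / 2) ^ (8 * ℓ) := by positivity
        have e1 : (2 : ℝ) ^ ℓ * (1 / 2 ^ 34) ^ (ℓ / 2 + 1) ≤ (1 / 2) ^ (8 * ℓ) * (1 / 2) ^ (8 * ℓ) := by
          have h6 : ((1 : ℝ) / 2 ^ 34) ^ (ℓ / 2 + 1) = (1 / 2) ^ (34 * (ℓ / 2 + 1)) := by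
            rw [pow_mul]; norm_num
          have h7 : ((1 : ℝ) / 2) ^ (34 * (ℓ / 2 + 1)) ≤ (1 / 2) ^ (17 * ℓ) :=
            pow_le_pow_of_le_one (by norm_num) (by norm_num) (by omega)
          rw [h6]
          calc (2 : ℝ) ^ ℓ * (1 / 2) ^ (34 * (ℓ / 2 + 1)) ≤ 2 ^ ℓ * (1 / 2) ^ (17 * ℓ) :=
                mul_le_mul_of_nonneg_left h7 (by positivity)
            _ = (1 / 2) ^ (8 * ℓ) * (1 / 2) ^ (8 * ℓ) := by
                rw [← pow_add]
                have h8 : 17 * ℓ = ℓ + (8 * ℓ + 8 * ℓ) := by ring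
                rw [h8, pow_add _ ℓ, ← mul_assoc, ← mul_pow]
                norm_num
        have e2 : (2 : ℝ) ^ ℓ * tb J j g ≤ (1 / 2) ^ (8 * ℓ) * (1 / 2) ^ (8 * ℓ) := by
          calc (2 : ℝ) ^ ℓ * tb J j g ≤ 2 ^ ℓ * (1 / 2) ^ (17 * ℓ) :=
                mul_le_mul_of_nonneg_left hτ (by positivity)
            _ = (1 / 2) ^ (8 * ℓ) * (1 / 2) ^ (8 * ℓ) := by
                rw [← pow_add]
                have h8 : 17 * ℓ = ℓ + (8 * ℓ + 8 * ℓ) := by ring
                rw [h8, pow_add _ ℓ, ← mul_assoc, ← mul_pow]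
                norm_num
        have e3 : 1 / (1 / 2 : ℝ) ^ (8 * ℓ) *
            (2 ^ ℓ * (1 / 2 ^ 34) ^ (ℓ / 2 + 1) + 2 ^ ℓ * tb J j g) ≤ 2 * (1 / 2) ^ (8 * ℓ) := by
          rw [one_div, inv_mul_eq_div, div_le_iff₀ hx]
          linarith
        linarith
      have hE : ex univ p (fun W => ((bad W).card : ℝ)) ≤ 3 * (1 / 2) ^ (8 * ℓ) * M := by
        refine le_trans ?_ (hkey.trans (mul_le_mul_of_nonneg_right hnum hMpos.le))
        apply le_of_eq
        apply ex_congr
        intro W _
        simp only [hbad]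
        congr!
      -- few bad indices imply an advance
      have hadv : ∀ W : Finset X, ((bad W).card : ℝ) ≤ (1 / 16) ^ ℓ * M →
          Prog G J (j + 1) A (g + 1) (V ∪ W) := by
        intro W hW
        refine ⟨Λ \ bad W, fun γ hγ => h1 γ (mem_sdiff.1 hγ).1, ?_, ?_⟩
        · rw [hℓ', ← hM]
          have h6 : ((Λ \ bad W).card : ℝ) = Λ.card - (bad W).card := by
            rw [card_sdiff_of_subset (filter_subset _ _),
              Nat.cast_sub (card_le_card (filter_subset _ _))]
          rw [h6]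
          have h7 : (1 / 16 : ℝ) ^ ℓ ≤ 1 / 16 * (1 / 16) ^ (ℓ / 2) := by
            rw [← pow_succ']
            apply pow_le_pow_of_le_one (by norm_num) (by norm_num)
            omega
          have h8 := mul_le_mul_of_nonneg_right h7 hMpos.le
          have h9 : 0 ≤ (1 / 16 : ℝ) ^ (ℓ / 2) * M := by positivity
          have h10 : (1 - 1 / 2 * (1 / 16 : ℝ) ^ ℓ) * M ≤ Λ.card := h2
          nlinarith
        · intro γ hγ
          rw [mem_sdiff] at hγ
          obtain ⟨hγΛ, hγb⟩ := hγ
          have hok : ∃ i' ∈ Λ, S i' ⊆ W ∪ S γ ∧ (S i' \ W).card ≤ ℓ / 2 ∧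
              ¬ ¬ Prog G J j (P i') (g + 1) (V ∪ W) := by
            by_contra hcon
            exact hγb (mem_filter.2 ⟨hγΛ, hcon⟩)
          obtain ⟨γ', hγ', hsub', hcard', hprog'⟩ := hok
          refine ⟨S γ' \ W, P γ', ?_, ?_, hPo γ' hγ', hAP γ' hγ', ?_, not_not.1 hprog'⟩
          · intro x hx
            rw [mem_sdiff] at hx
            rcases mem_union.1 (hsub' hx.1) with h | h
            · exact absurd h hx.2
            · exact hS γ hγΛ h
          · rw [hℓ']; exact hcard'
          · intro x hx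
            rcases mem_union.1 (hP γ' hγ' hx) with h | h
            · rcases mem_union.1 h with h | h
              · exact mem_union_left _ (mem_union_left _ h)
              · exact mem_union_left _ (mem_union_right _ (mem_union_left _ h))
            · by_cases hxW : x ∈ W
              · exact mem_union_left _ (mem_union_right _ (mem_union_right _ hxW))
              · exact mem_union_right _ (mem_sdiff.2 ⟨h, hxW⟩)
      -- Markov
      have hy : (0 : ℝ) < (1 / 16) ^ ℓ * M := by positivity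
      have hmark : ∀ W : Finset X, W ⊆ univ →
          (if ¬ Prog G J (j + 1) A (g + 1) (V ∪ W) then (1 : ℝ) else 0) ≤
          1 / ((1 / 16) ^ ℓ * M) * ((bad W).card : ℝ) := by
        intro W _
        by_cases hW : Prog G J (j + 1) A (g + 1) (V ∪ W)
        · rw [if_neg (not_not.2 hW)]; positivity
        · rw [if_pos hW]
          have h6 : (1 / 16) ^ ℓ * M < ((bad W).card : ℝ) := by
            by_contra hcon
            exact hW (hadv W (not_lt.1 hcon))
          rw [one_div, inv_mul_eq_div, le_div_iff₀ hy]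
          linarith
      refine (ex_mono hp0.le hp1 hmark).trans ?_
      rw [ex_const_mul, htb, hmx]
      rw [one_div, inv_mul_eq_div, div_le_iff₀ hy]
      refine hE.trans (le_of_eq ?_)
      have h6 : (1 / 2 : ℝ) ^ (8 * ℓ) = (1 / 16) ^ ℓ * (1 / 16) ^ ℓ := by
        rw [← mul_pow, pow_mul]; norm_num
      rw [h6]
      ring

end Vale.Agent.P064h5
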