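import Mathlib

/-!
Random subsets of a finite set: expectation operator, union of independent random subsets,
monotonicity.
-/

namespace Vale.Agent.P064h5

open Finset

set_option linter.unusedSectionVars false

variable {X : Type*} [DecidableEq X]

/-- Expectation of `g` over the `p`-random subset of `s`. -/
noncomputable def ex (s : Finset X) (p : ℝ) (g : Finset X → ℝ) : ℝ :=
  ∑ W ∈ s.powerset, p ^ W.card * (1 - p) ^ (s.card - W.card) * g W

theorem ex_empty (p : ℝ) (g : Finset X → ℝ) : ex (∅ : Finset X) p g = g ∅ := by
  simp [ex]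

theorem ex_insert {s : Finset X} {a : X} (ha : a ∉ s) (p : ℝ) (g : Finset X → ℝ) :
    ex (insert a s) p g = (1 - p) * ex s p g + p * ex s p (fun W => g (insert a W)) := by
  unfold ex
  rw [sum_powerset_insert ha, mul_sum, mul_sum]
  congr 1
  · apply sum_congr rfl
    intro W hW
    have hW' : W.card ≤ s.card := card_le_card (mem_powerset.1 hW)
    rw [card_insert_of_notMem ha]
    have : s.card + 1 - W.card = (s.card - W.card) + 1 := by omega
    rw [this, pow_succ]
    ring
  · apply sum_congr rfl
    intro W hW
    have hW' : W.card ≤ s.card := card_le_card (mem_powerset.1 hW)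
    have haW : a ∉ W := fun h => ha (mem_powerset.1 hW h)
    rw [card_insert_of_notMem ha, card_insert_of_notMem haW]
    have : s.card + 1 - (W.card + 1) = (s.card - W.card) := by omega
    rw [this, pow_succ]
    ring

theorem ex_congr {s : Finset X} {p : ℝ} {g h : Finset X → ℝ}
    (H : ∀ W, W ⊆ s → g W = h W) : ex s p g = ex s p h := by
  unfold ex
  apply sum_congr rfl
  intro W hW
  rw [H W (mem_powerset.1 hW)]

theorem ex_add (s : Finset X) (p : ℝ) (g h : Finset X → ℝ) :
    ex s p (fun W => g W + h W) = ex s p g + ex s p h := by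
  unfold ex
  rw [← sum_add_distrib]
  apply sum_congr rfl
  intro W _
  ring

theorem ex_const_mul (s : Finset X) (p c : ℝ) (g : Finset X → ℝ) :
    ex s p (fun W => c * g W) = c * ex s p g := by
  unfold ex
  rw [mul_sum]
  apply sum_congr rfl
  intro W _
  ring

theorem ex_const (s : Finset X) (p c : ℝ) : ex s p (fun _ => c) = c := by
  induction s using Finset.induction_on with
  | empty => simp [ex_empty]
  | insert a s ha ih => rw [ex_insert ha, ih]; ring

theorem ex_mono {s : Finset X} {p : ℝ} (h0 : 0 ≤ p) (h1 : p ≤ 1) {g h : Finset X → ℝ}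
    (H : ∀ W, W ⊆ s → g W ≤ h W) : ex s p g ≤ ex s p h := by
  unfold ex
  apply sum_le_sum
  intro W hW
  have := H W (mem_powerset.1 hW)
  have h2 : 0 ≤ p ^ W.card * (1 - p) ^ (s.card - W.card) := by
    have : 0 ≤ 1 - p := by linarith
    positivity
  exact mul_le_mul_of_nonneg_left this h2

theorem ex_nonneg {s : Finset X} {p : ℝ} (h0 : 0 ≤ p) (h1 : p ≤ 1) {g : Finset X → ℝ}
    (H : ∀ W, W ⊆ s → 0 ≤ g W) : 0 ≤ ex s p g := by
  have := ex_mono h0 h1 (s := s) (g := fun _ => 0) (h := g) H
  rwa [ex_const] at this

/-- The union of independent `p`- and `q`-random subsets is `1-(1-p)(1-q)`-random. -/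
theorem ex_union (s : Finset X) (p q : ℝ) (g : Finset X → ℝ) :
    ex s p (fun W₁ => ex s q (fun W₂ => g (W₁ ∪ W₂))) = ex s (1 - (1 - p) * (1 - q)) g := by
  induction s using Finset.induction_on generalizing g with
  | empty => simp [ex_empty]
  | insert a s ha ih =>
    rw [ex_insert ha, ex_insert ha]
    have e1 : ∀ W₁ : Finset X, ex (insert a s) q (fun W₂ => g (W₁ ∪ W₂)) =
        (1 - q) * ex s q (fun W₂ => g (W₁ ∪ W₂)) +
          q * ex s q (fun W₂ => g (insert a (W₁ ∪ W₂))) := by
      intro W₁
      rw [ex_insert ha]
      simp only [union_insert]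
    have e2 : ∀ W₁ : Finset X, ex (insert a s) q (fun W₂ => g (insert a W₁ ∪ W₂)) =
        ex s q (fun W₂ => g (insert a (W₁ ∪ W₂))) := by
      intro W₁
      rw [ex_insert ha]
      simp only [union_insert, insert_union, insert_idem]
      ring
    simp only [e2]
    simp only [e1]
    rw [ex_add, ex_const_mul, ex_const_mul, ih g, ih (fun W => g (insert a W))]
    ring

theorem ex_mono_left {s : Finset X} {p q : ℝ} (h0 : 0 ≤ p) (hpq : p ≤ q) (h1 : q ≤ 1)
    {g : Finset X → ℝ} (H : ∀ W W', W ⊆ W' → g W ≤ g W') : ex s p g ≤ ex s q g := by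
  induction s using Finset.induction_on generalizing g with
  | empty => simp [ex_empty]
  | insert a s ha ih =>
    rw [ex_insert ha, ex_insert ha]
    have i1 := ih H
    have i2 := ih (g := fun W => g (insert a W))
      (fun W W' h => H _ _ (insert_subset_insert a h))
    have i3 : ex s q g ≤ ex s q (fun W => g (insert a W)) :=
      ex_mono (h0.trans hpq) h1 (fun W _ => H _ _ (subset_insert a W))
    nlinarith

theorem ex_superset {s T : Finset X} (hT : T ⊆ s) (p : ℝ) :
    ex s p (fun W => if T ⊆ W then 1 else 0) = p ^ T.card := by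
  induction s using Finset.induction_on generalizing T with
  | empty =>
    have : T = ∅ := subset_empty.1 hT
    subst this
    simp [ex_empty]
  | insert a s ha ih =>
    rw [ex_insert ha]
    by_cases haT : a ∈ T
    · have hT' : T.erase a ⊆ s := by
        intro x hx
        have := hT (mem_of_mem_erase hx)
        rcases mem_insert.1 this with h | h
        · exact absurd h (ne_of_mem_erase hx)
        · exact h
      have e1 : ex s p (fun W => if T ⊆ W then (1 : ℝ) else 0) = 0 := by
        have : ex s p (fun W => if T ⊆ W then (1 : ℝ) else 0) = ex s p (fun _ => 0) := by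
          apply ex_congr
          intro W hW
          have : ¬ T ⊆ W := fun h => ha (hW (h haT))
          simp [this]
        rw [this, ex_const]
      have e2 : ex s p (fun W => if T ⊆ insert a W then (1 : ℝ) else 0) =
          p ^ (T.erase a).card := by
        rw [← ih hT']
        apply ex_congr
        intro W hW
        have : T ⊆ insert a W ↔ T.erase a ⊆ W := by
          rw [subset_insert_iff]
        simp [this]
      rw [e1, e2, card_erase_of_mem haT]
      have hpos : 0 < T.card := card_pos.2 ⟨a, haT⟩
      obtain ⟨k, hk⟩ : ∃ k, T.card = k + 1 := ⟨T.card - 1, by omega⟩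
      rw [hk, Nat.add_sub_cancel, pow_succ]
      ring
    · have hT' : T ⊆ s := by
        intro x hx
        rcases mem_insert.1 (hT hx) with h | h
        · exact absurd (h ▸ hx) haT
        · exact h
      have e2 : ex s p (fun W => if T ⊆ insert a W then (1 : ℝ) else 0) =
          ex s p (fun W => if T ⊆ W then (1 : ℝ) else 0) := by
        apply ex_congr
        intro W hW
        have : T ⊆ insert a W ↔ T ⊆ W := by
          rw [subset_insert_iff_of_notMem haT]
        simp [this]
      rw [e2, ih hT']
      ring

end Vale.Agent.P064h5
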