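import Vale.Agent.P064_h5.Rand

/-!
The spread lemma with halving rounds.
-/

namespace Vale.Agent.P064h5

open Finset

set_option linter.unusedSectionVars false

variable {X : Type*} [Fintype X] [DecidableEq X] {ι : Type*} [DecidableEq ι]

theorem sum_le_of_injOn {α β : Type*} [DecidableEq β] (P : Finset α) (Q : Finset β)
    (φ : α → β) (g : β → ℝ) (hφ : ∀ x ∈ P, φ x ∈ Q) (inj : Set.InjOn φ P)
    (hg : ∀ q ∈ Q, 0 ≤ g q) : ∑ x ∈ P, g (φ x) ≤ ∑ q ∈ Q, g q := by
  rw [← sum_image (f := g) (g := φ) inj]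
  apply sum_le_sum_of_subset_of_nonneg
  · intro y hy
    obtain ⟨x, hx, rfl⟩ := mem_image.1 hy
    exact hφ x hx
  · intro q hq _
    exact hg q hq

/-- Existence of minimal fragments. -/
theorem exists_fragment (I : Finset ι) (S : ι → Finset X) :
    ∃ T : ι → Finset X → Finset X, ∀ i ∈ I, ∀ W : Finset X,
      T i W ⊆ S i ∧ Disjoint W (T i W) ∧ (∃ j ∈ I, S j ⊆ W ∪ T i W) ∧
      ∀ k ∈ I, S k ⊆ W ∪ T i W → T i W ⊆ S k := by
  classical
  have key : ∀ i : ι, ∀ W : Finset X, ∃ T : Finset X, i ∈ I →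
      T ⊆ S i ∧ Disjoint W T ∧ (∃ j ∈ I, S j ⊆ W ∪ T) ∧
      ∀ k ∈ I, S k ⊆ W ∪ T → T ⊆ S k := by
    intro i W
    by_cases hi : i ∈ I
    · have hne : (I.filter (fun j => S j ⊆ W ∪ S i)).Nonempty :=
        ⟨i, mem_filter.2 ⟨hi, subset_union_right⟩⟩
      obtain ⟨j, hj, hmin⟩ := exists_min_image _ (fun j => (S j \ W).card) hne
      rw [mem_filter] at hj
      refine ⟨S j \ W, fun _ => ⟨?_, ?_, ⟨j, hj.1, ?_⟩, ?_⟩⟩
      · intro x hx
        rw [mem_sdiff] at hx
        rcases mem_union.1 (hj.2 hx.1) with h | h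
        · exact absurd h hx.2
        · exact h
      · exact disjoint_sdiff
      · intro x hx
        by_cases hxW : x ∈ W
        · exact mem_union_left _ hxW
        · exact mem_union_right _ (mem_sdiff.2 ⟨hx, hxW⟩)
      · intro k hk hkS
        have hk2 : S k ⊆ W ∪ S i := by
          intro x hx
          rcases mem_union.1 (hkS hx) with h | h
          · exact mem_union_left _ h
          · exact hj.2 (mem_sdiff.1 h).1
        have h1 := hmin k (mem_filter.2 ⟨hk, hk2⟩)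
        have h2 : S k \ W ⊆ S j \ W := by
          intro x hx
          rw [mem_sdiff] at hx
          rcases mem_union.1 (hkS hx.1) with h | h
          · exact absurd h hx.2
          · exact h
        have h3 := eq_of_subset_of_card_le h2 h1
        rw [← h3]
        exact sdiff_subset
    · exact ⟨∅, fun h => absurd h hi⟩
  choose T hT using key
  exact ⟨T, fun i hi W => hT i W hi⟩

/-- weight of a single set -/
noncomputable def wt (p : ℝ) (W : Finset X) : ℝ :=
  p ^ W.card * (1 - p) ^ (Fintype.card X - W.card)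

theorem ex_univ (p : ℝ) (g : Finset X → ℝ) :
    ex (univ : Finset X) p g = ∑ W : Finset X, wt p W * g W := by
  unfold ex wt
  rw [powerset_univ]
  rfl

theorem wt_nonneg {p : ℝ} (h0 : 0 ≤ p) (h1 : p ≤ 1) (W : Finset X) : 0 ≤ wt p W := by
  unfold wt
  have : 0 ≤ 1 - p := by linarith
  positivity

theorem sum_wt (p : ℝ) : ∑ W : Finset X, wt p W = 1 := by
  have := ex_const (univ : Finset X) p 1
  rw [ex_univ] at this
  simpa using this

theorem wt_union {p : ℝ} (h0 : 0 ≤ p) (h1 : p ≤ 1) {W T : Finset X} (h : Disjoint W T) :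
    p ^ T.card * wt p W ≤ wt p (W ∪ T) := by
  unfold wt
  rw [card_union_of_disjoint h]
  have hle : W.card + T.card ≤ Fintype.card X := by
    rw [← card_union_of_disjoint h]; exact card_le_univ _
  have e : Fintype.card X - W.card = (Fintype.card X - (W.card + T.card)) + T.card := by omega
  rw [e, pow_add (1 - p), pow_add p]
  have h3 : (1 - p) ^ T.card ≤ 1 := pow_le_one₀ (by linarith) (by linarith)
  have h4 : 0 ≤ (1 - p) ^ (Fintype.card X - (W.card + T.card)) :=
    pow_nonneg (by linarith) _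
  have h5 : 0 ≤ p ^ T.card := pow_nonneg h0 _
  have h6 : 0 ≤ p ^ W.card := pow_nonneg h0 _
  have h7 : 0 ≤ p ^ T.card * (p ^ W.card * (1 - p) ^ (Fintype.card X - (W.card + T.card))) := by
    positivity
  calc p ^ T.card * (p ^ W.card *
        ((1 - p) ^ (Fintype.card X - (W.card + T.card)) * (1 - p) ^ T.card))
      = (p ^ T.card * (p ^ W.card * (1 - p) ^ (Fintype.card X - (W.card + T.card)))) *
          (1 - p) ^ T.card := by ring
    _ ≤ (p ^ T.card * (p ^ W.card * (1 - p) ^ (Fintype.card X - (W.card + T.card)))) * 1 :=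
        mul_le_mul_of_nonneg_left h3 h7
    _ = _ := by ring

/-- One round. -/
theorem round_bound {κ N p : ℝ} (hκ : 0 ≤ κ) (hN : 0 ≤ N) (hp0 : 0 < p) (hp1 : p ≤ 1)
    (hp : 64 * κ ≤ p) (ℓ : ℕ) (I : Finset ι) (S : ι → Finset X)
    (hS : ∀ i ∈ I, (S i).card ≤ ℓ)
    (hsp : ∀ U : Finset X, ((I.filter (fun i => U ⊆ S i)).card : ℝ) ≤ κ ^ U.card * N)
    (T : ι → Finset X → Finset X)
    (hT : ∀ i ∈ I, ∀ W : Finset X,
      T i W ⊆ S i ∧ Disjoint W (T i W) ∧ (∃ j ∈ I, S j ⊆ W ∪ T i W) ∧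
      ∀ k ∈ I, S k ⊆ W ∪ T i W → T i W ⊆ S k) :
    ∑ W : Finset X, wt p W * ((I.filter (fun i => ℓ < 2 * (T i W).card)).card : ℝ)
      ≤ (1 / 4) ^ ℓ * N := by
  classical
  rcases I.eq_empty_or_nonempty with hI | ⟨i₀, hi₀⟩
  · subst hI
    simp only [filter_empty, card_empty, Nat.cast_zero, mul_zero, sum_const_zero]
    positivity
  -- canonical member
  have hk : ∀ Z : Finset X, ∃ k, k ∈ I ∧ ((∃ j ∈ I, S j ⊆ Z) → S k ⊆ Z) := by
    intro Z
    by_cases h : ∃ j ∈ I, S j ⊆ Z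
    · obtain ⟨j, hj, hjZ⟩ := h
      exact ⟨j, hj, fun _ => hjZ⟩
    · exact ⟨i₀, hi₀, fun h' => absurd h' h⟩
  choose k0 hk0 hk0' using hk
  -- the pairs
  set P : Finset (Finset X × ι) :=
    (univ ×ˢ I).filter (fun x => ℓ < 2 * (T x.2 x.1).card) with hP
  set Q : Finset ((_ : Finset X) × (_ : Finset X) × ι) :=
    univ.sigma (fun Z => ((S (k0 Z)).powerset.filter (fun U => ℓ < 2 * U.card)).sigma
      (fun U => I.filter (fun i => U ⊆ S i))) with hQ
  set g : ((_ : Finset X) × (_ : Finset X) × ι) → ℝ :=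
    fun y => (1 / p) ^ y.2.1.card * wt p y.1 with hg
  set φ : Finset X × ι → ((_ : Finset X) × (_ : Finset X) × ι) :=
    fun x => ⟨x.1 ∪ T x.2 x.1, ⟨T x.2 x.1, x.2⟩⟩ with hφ
  have hstep1 : ∑ W : Finset X, wt p W * ((I.filter (fun i => ℓ < 2 * (T i W).card)).card : ℝ)
      = ∑ x ∈ P, wt p x.1 := by
    rw [hP, sum_filter, sum_product]
    apply sum_congr rfl
    intro W _
    rw [← sum_filter]
    simp only [sum_const, nsmul_eq_mul]
    ring
  have hstep2 : ∑ x ∈ P, wt p x.1 ≤ ∑ x ∈ P, g (φ x) := by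
    apply sum_le_sum
    intro x hx
    rw [hP, mem_filter, mem_product] at hx
    obtain ⟨_, hd, _, _⟩ := hT x.2 hx.1.2 x.1
    have := wt_union hp0.le hp1 hd
    simp only [hg, hφ]
    have hpow : 0 < p ^ (T x.2 x.1).card := pow_pos hp0 _
    rw [one_div, inv_pow, inv_mul_eq_div, le_div_iff₀ hpow]
    linarith
  have hinj : Set.InjOn φ P := by
    intro x hx y hy hxy
    rw [hP, mem_coe, mem_filter, mem_product] at hx hy
    obtain ⟨_, hdx, _, _⟩ := hT x.2 hx.1.2 x.1
    obtain ⟨_, hdy, _, _⟩ := hT y.2 hy.1.2 y.1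
    simp only [hφ, Sigma.mk.injEq, heq_eq_eq] at hxy
    obtain ⟨h1, h2, h3⟩ := hxy
    have : x.1 = y.1 := by
      have a1 : (x.1 ∪ T x.2 x.1) \ T x.2 x.1 = x.1 := by
        rw [union_sdiff_right, sdiff_eq_self_of_disjoint hdx]
      have a2 : (y.1 ∪ T y.2 y.1) \ T y.2 y.1 = y.1 := by
        rw [union_sdiff_right, sdiff_eq_self_of_disjoint hdy]
      rw [← a1, ← a2, h1, h2]
    exact Prod.ext this h3
  have hmaps : ∀ x ∈ P, φ x ∈ Q := by
    intro x hx
    rw [hP, mem_filter, mem_product] at hx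
    obtain ⟨h1, hd, h2, h3⟩ := hT x.2 hx.1.2 x.1
    simp only [hQ, hφ, mem_sigma, mem_univ, true_and, mem_filter, mem_powerset]
    exact ⟨⟨h3 _ (hk0 _) (hk0' _ h2), hx.2⟩, hx.1.2, h1⟩
  have hgn : ∀ q ∈ Q, 0 ≤ g q := by
    intro q _
    simp only [hg]
    have := wt_nonneg hp0.le hp1 q.1
    positivity
  have hstep3 := sum_le_of_injOn P Q φ g hmaps hinj hgn
  have hstep4 : ∑ q ∈ Q, g q ≤ ∑ Z : Finset X, wt p Z * ((1 / 4) ^ ℓ * N) := by
    rw [hQ, sum_sigma]
    apply sum_le_sum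
    intro Z _
    rw [sum_sigma]
    have hb : ∀ U ∈ (S (k0 Z)).powerset.filter (fun U => ℓ < 2 * U.card),
        ∑ s ∈ I.filter (fun i => U ⊆ S i), g ⟨Z, ⟨U, s⟩⟩ ≤ (1 / 8) ^ ℓ * N * wt p Z := by
      intro U hU
      rw [mem_filter] at hU
      simp only [hg, sum_const, nsmul_eq_mul]
      have h1 := hsp U
      have hw := wt_nonneg hp0.le hp1 Z
      have h2 : ((I.filter (fun i => U ⊆ S i)).card : ℝ) * (1 / p) ^ U.card ≤ (1 / 8) ^ ℓ * N := by
        calc ((I.filter (fun i => U ⊆ S i)).card : ℝ) * (1 / p) ^ U.card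
            ≤ (κ ^ U.card * N) * (1 / p) ^ U.card := by
              apply mul_le_mul_of_nonneg_right h1
              positivity
          _ = (κ / p) ^ U.card * N := by
              rw [div_pow, div_pow, one_pow]
              ring
          _ ≤ (1 / 64) ^ U.card * N := by
              apply mul_le_mul_of_nonneg_right _ hN
              apply pow_le_pow_left₀ (by positivity)
              rw [div_le_div_iff₀ hp0 (by norm_num)]
              linarith
          _ = (1 / 8) ^ (2 * U.card) * N := by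
              rw [pow_mul]; norm_num
          _ ≤ (1 / 8) ^ ℓ * N := by
              apply mul_le_mul_of_nonneg_right _ hN
              apply pow_le_pow_of_le_one (by norm_num) (by norm_num)
              exact hU.2.le
      calc ((I.filter (fun i => U ⊆ S i)).card : ℝ) * ((1 / p) ^ U.card * wt p Z)
          = ((I.filter (fun i => U ⊆ S i)).card : ℝ) * (1 / p) ^ U.card * wt p Z := by ring
        _ ≤ (1 / 8) ^ ℓ * N * wt p Z := mul_le_mul_of_nonneg_right h2 hw
    refine (sum_le_sum hb).trans ?_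
    rw [sum_const, nsmul_eq_mul]
    have hcard : (((S (k0 Z)).powerset.filter (fun U => ℓ < 2 * U.card)).card : ℝ) ≤ 2 ^ ℓ := by
      have h1 : ((S (k0 Z)).powerset.filter (fun U => ℓ < 2 * U.card)).card ≤
          (S (k0 Z)).powerset.card := card_filter_le _ _
      rw [card_powerset] at h1
      have h2 : 2 ^ (S (k0 Z)).card ≤ 2 ^ ℓ :=
        Nat.pow_le_pow_right (by norm_num) (hS _ (hk0 Z))
      exact_mod_cast h1.trans h2
    have hw := wt_nonneg hp0.le hp1 Z
    calc (((S (k0 Z)).powerset.filter (fun U => ℓ < 2 * U.card)).card : ℝ) *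
          ((1 / 8) ^ ℓ * N * wt p Z)
        ≤ 2 ^ ℓ * ((1 / 8) ^ ℓ * N * wt p Z) := by
          apply mul_le_mul_of_nonneg_right hcard
          positivity
      _ = wt p Z * ((2 ^ ℓ * (1 / 8) ^ ℓ) * N) := by ring
      _ = wt p Z * ((1 / 4) ^ ℓ * N) := by
          rw [← mul_pow]; norm_num
  calc _ = ∑ x ∈ P, wt p x.1 := hstep1
    _ ≤ ∑ x ∈ P, g (φ x) := hstep2
    _ ≤ ∑ q ∈ Q, g q := hstep3
    _ ≤ ∑ Z : Finset X, wt p Z * ((1 / 4) ^ ℓ * N) := hstep4
    _ = (1 / 4) ^ ℓ * N := by rw [← sum_mul, sum_wt, one_mul]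

open Classical in
/-- indicator that some member of the family is contained in `W` -/
noncomputable def hit (I : Finset ι) (S : ι → Finset X) (W : Finset X) : ℝ :=
  if ∃ i ∈ I, S i ⊆ W then 1 else 0

theorem hit_mono (I : Finset ι) (S : ι → Finset X) (W W' : Finset X) (h : W ⊆ W') :
    hit I S W ≤ hit I S W' := by
  unfold hit
  by_cases h1 : ∃ i ∈ I, S i ⊆ W
  · have h2 : ∃ i ∈ I, S i ⊆ W' := by
      obtain ⟨i, hi, hs⟩ := h1
      exact ⟨i, hi, hs.trans h⟩
    rw [if_pos h1, if_pos h2]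
  · rw [if_neg h1]
    split_ifs <;> norm_num

/-- number of rounds -/
def rounds (ℓ : ℕ) : ℕ := Nat.log 2 (2 * ℓ)

theorem rounds_zero : rounds 0 = 0 := by simp [rounds]

theorem rounds_pos {ℓ : ℕ} (h : 1 ≤ ℓ) : rounds ℓ = rounds (ℓ / 2) + 1 := by
  unfold rounds
  rw [Nat.log_of_one_lt_of_le (by norm_num) (by omega)]
  congr 1
  have e1 : 2 * ℓ / 2 = ℓ := by omega
  rw [e1]
  rcases Nat.lt_or_ge ℓ 2 with h2 | h2
  · have : ℓ = 1 := by omega
    subst this
    simp
  · rw [Nat.log_of_one_lt_of_le (by norm_num) h2, Nat.log_of_one_lt_of_le (b := 2) (n := 2 * (ℓ / 2)) (by norm_num) (by omega)]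
    congr 2
    omega

theorem spread_aux {κ N p : ℝ} (hκ : 0 ≤ κ) (hN : 0 ≤ N) (hp0 : 0 < p) (hp1 : p ≤ 1)
    (hp : 64 * κ ≤ p) (ℓ : ℕ) : ∀ (I : Finset ι) (S : ι → Finset X),
    (∀ i ∈ I, (S i).card ≤ ℓ) →
    (∀ U : Finset X, ((I.filter (fun i => U ⊆ S i)).card : ℝ) ≤ κ ^ U.card * N) →
    (I.card : ℝ) - (1 / 2 - 1 / 2 * (1 / 4) ^ ℓ) * N ≤
      ex univ (1 - (1 - p) ^ rounds ℓ) (hit I S) * N := by
  classical
  induction ℓ using Nat.strong_induction_on with
  | _ ℓ ih =>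
  intro I S hS hsp
  rcases Nat.eq_zero_or_pos ℓ with hℓ | hℓ
  · subst hℓ
    have hS' : ∀ i ∈ I, S i = ∅ := fun i hi => card_eq_zero.1 (Nat.le_zero.1 (hS i hi))
    rcases I.eq_empty_or_nonempty with hI | ⟨i₀, hi₀⟩
    · subst hI
      have : 0 ≤ ex (univ : Finset X) (1 - (1 - p) ^ rounds 0) (hit ∅ S) := by
        apply ex_nonneg (by simp [rounds_zero]) (by simp [rounds_zero])
        intro W _
        unfold hit
        split_ifs <;> norm_num
      simp only [card_empty, Nat.cast_zero, pow_zero]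
      have : 0 ≤ ex (univ : Finset X) (1 - (1 - p) ^ rounds 0) (hit ∅ S) * N :=
        mul_nonneg this hN
      linarith
    · have e1 : ex (univ : Finset X) (1 - (1 - p) ^ rounds 0) (hit I S) = 1 := by
        refine Eq.trans (ex_congr (h := fun _ => 1) ?_) (ex_const _ _ _)
        intro W _
        unfold hit
        rw [if_pos ⟨i₀, hi₀, by rw [hS' i₀ hi₀]; exact empty_subset _⟩]
      rw [e1]
      have := hsp ∅
      simp only [empty_subset, filter_true, card_empty, pow_zero, one_mul] at this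
      simp only [pow_zero]
      linarith
  · obtain ⟨T, hT⟩ := exists_fragment I S
    have hround := round_bound hκ hN hp0 hp1 hp ℓ I S hS hsp T hT
    set p' : ℝ := 1 - (1 - p) ^ rounds (ℓ / 2) with hp'
    have hq0 : 0 ≤ 1 - p := by linarith
    have hp'0 : 0 ≤ p' := by
      have : (1 - p) ^ rounds (ℓ / 2) ≤ 1 := pow_le_one₀ hq0 (by linarith)
      linarith
    have hp'1 : p' ≤ 1 := by
      have : 0 ≤ (1 - p) ^ rounds (ℓ / 2) := pow_nonneg hq0 _
      linarith
    have e1 : 1 - (1 - p) ^ rounds ℓ = 1 - (1 - p) * (1 - p') := by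
      rw [rounds_pos hℓ, pow_succ, hp']; ring
    rw [e1, ← ex_union, ex_univ, sum_mul]
    -- pointwise bound
    have hpt : ∀ W : Finset X,
        (I.card : ℝ) - ((I.filter (fun i => ℓ < 2 * (T i W).card)).card : ℝ)
          - (1 / 2 - 1 / 2 * (1 / 4) ^ (ℓ / 2)) * N ≤
        ex univ p' (fun W₂ => hit I S (W ∪ W₂)) * N := by
      intro W
      set I' := I.filter (fun i => ¬ ℓ < 2 * (T i W).card) with hI'
      have hsz : ∀ i ∈ I', (T i W).card ≤ ℓ / 2 := by
        intro i hi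
        rw [hI', mem_filter] at hi
        omega
      have hsp' : ∀ U : Finset X,
          ((I'.filter (fun i => U ⊆ T i W)).card : ℝ) ≤ κ ^ U.card * N := by
        intro U
        refine le_trans ?_ (hsp U)
        have : I'.filter (fun i => U ⊆ T i W) ⊆ I.filter (fun i => U ⊆ S i) := by
          intro i hi
          rw [mem_filter, hI', mem_filter] at hi
          rw [mem_filter]
          exact ⟨hi.1.1, hi.2.trans (hT i hi.1.1 W).1⟩
        exact_mod_cast card_le_card this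
      have hrec := ih (ℓ / 2) (by omega) I' (fun i => T i W) hsz hsp'
      have hcard : (I'.card : ℝ) =
          I.card - ((I.filter (fun i => ℓ < 2 * (T i W).card)).card : ℝ) := by
        have := card_filter_add_card_filter_not (s := I) (fun i => ℓ < 2 * (T i W).card)
        rw [← this, hI']
        push_cast
        ring
      rw [hcard] at hrec
      refine hrec.trans ?_
      apply mul_le_mul_of_nonneg_right _ hN
      apply ex_mono hp'0 hp'1
      intro W₂ _
      unfold hit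
      by_cases h1 : ∃ i ∈ I', T i W ⊆ W₂
      · have h2 : ∃ i ∈ I, S i ⊆ W ∪ W₂ := by
          obtain ⟨i, hi, hs⟩ := h1
          rw [hI', mem_filter] at hi
          obtain ⟨_, _, ⟨j, hj, hjS⟩, _⟩ := hT i hi.1 W
          exact ⟨j, hj, hjS.trans (union_subset_union_right hs)⟩
        rw [if_pos h1, if_pos h2]
      · rw [if_neg h1]
        split_ifs <;> norm_num
    have hsum : ∑ W : Finset X, wt p W * ((I.card : ℝ) -
          ((I.filter (fun i => ℓ < 2 * (T i W).card)).card : ℝ)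
          - (1 / 2 - 1 / 2 * (1 / 4) ^ (ℓ / 2)) * N) ≤
        ∑ W : Finset X, wt p W * ex univ p' (fun W₂ => hit I S (W ∪ W₂)) * N := by
      apply sum_le_sum
      intro W _
      rw [mul_assoc]
      exact mul_le_mul_of_nonneg_left (hpt W) (wt_nonneg hp0.le hp1 W)
    refine le_trans ?_ hsum
    have e2 : ∑ W : Finset X, wt p W * ((I.card : ℝ) -
          ((I.filter (fun i => ℓ < 2 * (T i W).card)).card : ℝ)
          - (1 / 2 - 1 / 2 * (1 / 4) ^ (ℓ / 2)) * N) =
        (I.card : ℝ) - (1 / 2 - 1 / 2 * (1 / 4) ^ (ℓ / 2)) * N -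
        ∑ W : Finset X, wt p W * ((I.filter (fun i => ℓ < 2 * (T i W).card)).card : ℝ) := by
      have : ∀ W : Finset X, wt p W * ((I.card : ℝ) -
          ((I.filter (fun i => ℓ < 2 * (T i W).card)).card : ℝ)
          - (1 / 2 - 1 / 2 * (1 / 4) ^ (ℓ / 2)) * N) =
          wt p W * ((I.card : ℝ) - (1 / 2 - 1 / 2 * (1 / 4) ^ (ℓ / 2)) * N) -
          wt p W * ((I.filter (fun i => ℓ < 2 * (T i W).card)).card : ℝ) := by
        intro W; ring
      simp only [this]
      rw [sum_sub_distrib, ← sum_mul, sum_wt, one_mul]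
    rw [e2]
    have h4 : ((1 : ℝ) / 4) ^ ℓ ≤ 1 / 4 * (1 / 4) ^ (ℓ / 2) := by
      rw [← pow_succ']
      apply pow_le_pow_of_le_one (by norm_num) (by norm_num)
      omega
    have h5 := mul_le_mul_of_nonneg_right h4 hN
    have h6 : 0 ≤ ((1 : ℝ) / 4) ^ ℓ * N := by positivity
    linarith

/-- The spread lemma. -/
theorem spread {κ p : ℝ} (hκ : 0 ≤ κ) (hp1 : p ≤ 1) (ℓ : ℕ)
    (hp : 64 * κ * rounds ℓ ≤ p) (I : Finset ι) (hI : I.Nonempty) (S : ι → Finset X)
    (hS : ∀ i ∈ I, (S i).card ≤ ℓ)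
    (hsp : ∀ U : Finset X, ((I.filter (fun i => U ⊆ S i)).card : ℝ) ≤ κ ^ U.card * I.card) :
    1 / 2 ≤ ex univ p (hit I S) := by
  classical
  have hIpos : (0 : ℝ) < I.card := by exact_mod_cast card_pos.2 hI
  -- if all sets are empty
  have hempty : (∃ i ∈ I, S i = ∅) → ex univ p (hit I S) = 1 := by
    rintro ⟨i, hi, hSi⟩
    refine Eq.trans (ex_congr (h := fun _ => 1) ?_) (ex_const _ _ _)
    intro W _
    unfold hit
    rw [if_pos ⟨i, hi, by rw [hSi]; exact empty_subset _⟩]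
  by_cases hex : ∃ i ∈ I, S i = ∅
  · rw [hempty hex]; norm_num
  -- κ is positive
  obtain ⟨i₀, hi₀⟩ := hI
  have hne : (S i₀).Nonempty := by
    rw [nonempty_iff_ne_empty]
    intro h
    exact hex ⟨i₀, hi₀, h⟩
  have hκpos : 0 < κ := by
    rcases hκ.lt_or_eq with h | h
    · exact h
    · exfalso
      have h1 := hsp (S i₀)
      rw [← h, zero_pow (card_pos.2 hne).ne', zero_mul] at h1
      have h2 : 0 < (I.filter (fun i => S i₀ ⊆ S i)).card :=
        card_pos.2 ⟨i₀, mem_filter.2 ⟨hi₀, Subset.refl _⟩⟩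
      have h3 : (0 : ℝ) < ((I.filter (fun i => S i₀ ⊆ S i)).card : ℝ) := by exact_mod_cast h2
      linarith
  have hℓ : 1 ≤ ℓ := (card_pos.2 hne).trans_le (hS i₀ hi₀)
  have hr : 1 ≤ rounds ℓ := by rw [rounds_pos hℓ]; omega
  have hr' : (1 : ℝ) ≤ rounds ℓ := by exact_mod_cast hr
  have hp64 : 64 * κ ≤ p := by nlinarith
  have hk1 : 64 * κ ≤ 1 := hp64.trans hp1
  have h := spread_aux (X := X) hκ hIpos.le (p := 64 * κ) (by linarith) hk1 le_rfl ℓ I S hS hsp
  have hb : 1 - (1 - 64 * κ) ^ rounds ℓ ≤ p := by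
    have := one_add_mul_le_pow (a := -(64 * κ)) (by linarith) (rounds ℓ)
    have e : 1 + -(64 * κ) = 1 - 64 * κ := by ring
    rw [e] at this
    nlinarith
  have hb0 : 0 ≤ 1 - (1 - 64 * κ) ^ rounds ℓ := by
    have : (1 - 64 * κ) ^ rounds ℓ ≤ 1 := pow_le_one₀ (by linarith) (by linarith)
    linarith
  have hmono := ex_mono_left (s := (univ : Finset X)) hb0 hb hp1 (g := hit I S) (hit_mono I S)
  have h5 : (1 : ℝ) / 2 ≤ ex univ (1 - (1 - 64 * κ) ^ rounds ℓ) (hit I S) := by
    have h6 : (0 : ℝ) ≤ (1 / 4) ^ ℓ := by positivity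
    have h7 : (1 : ℝ) / 2 * I.card ≤ ex univ (1 - (1 - 64 * κ) ^ rounds ℓ) (hit I S) * I.card := by
      nlinarith
    exact le_of_mul_le_mul_right h7 hIpos
  exact h5.trans hmono

end Vale.Agent.P064h5
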